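import Crest.Agent.R323.Defs

/-!
Row 323: closure properties of single-fold Diophantine predicates and functions.
-/

namespace Crest.Agent.R323

open MvPolynomial

variable {ι : Type}

/-- Unknowns may be indexed by any finite type. -/
theorem SF.of_fintype {p : (ι → ℕ) → Prop} {κ : Type} [Fintype κ] (P : MvPolynomial (ι ⊕ κ) ℤ)
    (h : ∀ a : ι → ℕ, (p a → ∃! w : κ → ℕ, ev P a w = 0) ∧ (¬ p a → ∀ w : κ → ℕ, ev P a w ≠ 0)) :
    SF p := by
  classical
  let e : κ ≃ Fin (Fintype.card κ) := Fintype.equivFin κ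
  have key : ∀ (a : ι → ℕ) (w : Fin (Fintype.card κ) → ℕ),
      ev (rename (Sum.map id e) P) a w = ev P a (w ∘ e) := by
    intro a w
    unfold ev
    rw [eval_rename]
    congr 2
    funext x
    cases x <;> simp
  refine ⟨Fintype.card κ, rename (Sum.map id e) P, fun a => ⟨fun hp => ?_, fun hp w => ?_⟩⟩
  · obtain ⟨w, hw, hu⟩ := (h a).1 hp
    refine ⟨w ∘ e.symm, ?_, fun w' hw' => ?_⟩
    · show ev _ a _ = 0
      rw [key]
      have : (w ∘ e.symm) ∘ e = w := by funext x; simp
      rw [this]; exact hw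
    · have := hu (w' ∘ e) (by show ev P a (w' ∘ e) = 0; rw [← key]; exact hw')
      funext x
      have := congrFun this (e.symm x)
      simpa using this
  · rw [key]; exact (h a).2 hp _

theorem SF.congr {p q : (ι → ℕ) → Prop} (hp : SF p) (h : ∀ a, p a ↔ q a) : SF q := by
  have : p = q := funext fun a => propext (h a)
  rwa [← this]

theorem SFn.congr {f g : (ι → ℕ) → ℕ} (hf : SFn f) (h : ∀ a, f a = g a) : SFn g := by
  have : f = g := funext h
  rwa [← this]

/-- Renaming the inputs. -/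
theorem SF.reindex {ι' : Type} {p : (ι → ℕ) → Prop} (hp : SF p) (f : ι → ι') :
    SF (fun b : ι' → ℕ => p (fun i => b (f i))) := by
  obtain ⟨m, P, h⟩ := hp
  have key : ∀ (b : ι' → ℕ) (w : Fin m → ℕ),
      ev (rename (Sum.map f id) P) b w = ev P (fun i => b (f i)) w := by
    intro b w
    unfold ev
    rw [eval_rename]
    congr 2
    funext x
    cases x <;> simp
  refine ⟨m, rename (Sum.map f id) P, fun b => ?_⟩
  simp only [key]
  exact h _

/-- A polynomial equation with no unknowns. -/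
theorem SF.poly (P : MvPolynomial ι ℤ) :
    SF (fun a : ι → ℕ => MvPolynomial.eval (fun i => (a i : ℤ)) P = 0) := by
  have key : ∀ (a : ι → ℕ) (w : Fin 0 → ℕ),
      ev (rename Sum.inl P) a w = MvPolynomial.eval (fun i => (a i : ℤ)) P := by
    intro a w
    unfold ev
    rw [eval_rename]
    rfl
  refine ⟨0, rename Sum.inl P, fun a => ⟨fun hp => ⟨fun i => i.elim0, ?_, fun w _ => ?_⟩,
    fun hp w => ?_⟩⟩
  · show ev _ a _ = 0
    rw [key]; exact hp
  · funext i; exact i.elim0
  · rw [key]; exact hp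

theorem SF.and {p q : (ι → ℕ) → Prop} (hp : SF p) (hq : SF q) : SF (fun a => p a ∧ q a) := by
  obtain ⟨m, P, h⟩ := hp
  obtain ⟨m', Q, h'⟩ := hq
  have key : ∀ (a : ι → ℕ) (w : Fin m ⊕ Fin m' → ℕ),
      ev ((rename (Sum.map id Sum.inl) P) ^ 2 + (rename (Sum.map id Sum.inr) Q) ^ 2) a w = 0 ↔
        ev P a (w ∘ Sum.inl) = 0 ∧ ev Q a (w ∘ Sum.inr) = 0 := by
    intro a w
    have h1 : MvPolynomial.eval (Sum.elim (fun i => (a i : ℤ)) (fun j => (w j : ℤ)))
        (rename (Sum.map id Sum.inl) P) = ev P a (w ∘ Sum.inl) := by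
      unfold ev; rw [eval_rename]; congr 2; funext x; cases x <;> simp
    have h2 : MvPolynomial.eval (Sum.elim (fun i => (a i : ℤ)) (fun j => (w j : ℤ)))
        (rename (Sum.map id Sum.inr) Q) = ev Q a (w ∘ Sum.inr) := by
      unfold ev; rw [eval_rename]; congr 2; funext x; cases x <;> simp
    conv_lhs => unfold ev
    rw [map_add, map_pow, map_pow, h1, h2]
    constructor
    · intro h0
      constructor <;> nlinarith [sq_nonneg (ev P a (w ∘ Sum.inl)), sq_nonneg (ev Q a (w ∘ Sum.inr))]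
    · rintro ⟨h1, h2⟩; rw [h1, h2]; norm_num
  refine SF.of_fintype (κ := Fin m ⊕ Fin m')
    ((rename (Sum.map id Sum.inl) P) ^ 2 + (rename (Sum.map id Sum.inr) Q) ^ 2)
    (fun a => ⟨fun hpq => ?_, fun hpq w hw => ?_⟩)
  · obtain ⟨w, hw, hu⟩ := (h a).1 hpq.1
    obtain ⟨w', hw', hu'⟩ := (h' a).1 hpq.2
    refine ⟨Sum.elim w w', ?_, fun v hv => ?_⟩
    · show ev _ a _ = 0
      rw [key]; exact ⟨hw, hw'⟩
    · replace hv := (key a v).1 hv
      have e1 := hu _ hv.1
      have e2 := hu' _ hv.2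
      funext x
      cases x with
      | inl x => simpa using congrFun e1 x
      | inr x => simpa using congrFun e2 x
  · rw [key] at hw
    by_cases h1 : p a
    · by_cases h2 : q a
      · exact hpq ⟨h1, h2⟩
      · exact (h' a).2 h2 _ hw.2
    · exact (h a).2 h1 _ hw.1

/-- Unique existential quantifier over one natural number. -/
theorem SF.ex {p : ℕ → (ι → ℕ) → Prop}
    (hp : SF (fun b : Option ι → ℕ => p (b none) (fun i => b (some i))))
    (hu : ∀ a x y, p x a → p y a → x = y) : SF (fun a => ∃ x, p x a) := by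
  obtain ⟨m, P, h⟩ := hp
  let ρ : Option ι ⊕ Fin m → ι ⊕ Option (Fin m) := fun x =>
    match x with
    | Sum.inl none => Sum.inr none
    | Sum.inl (some i) => Sum.inl i
    | Sum.inr j => Sum.inr (some j)
  have key : ∀ (a : ι → ℕ) (w : Option (Fin m) → ℕ),
      ev (rename ρ P) a w = ev P (fun o => o.elim (w none) a) (fun j => w (some j)) := by
    intro a w
    unfold ev
    rw [eval_rename]
    congr 2
    funext x
    rcases x with (_ | i) | j <;> simp [ρ]
  refine SF.of_fintype (κ := Option (Fin m)) (rename ρ P)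
    (fun a => ⟨fun ⟨x, hx⟩ => ?_, fun hn w hw => ?_⟩)
  · obtain ⟨w, hw, hwu⟩ := (h (fun o => o.elim x a)).1 (by simpa using hx)
    refine ⟨fun o => o.elim x w, ?_, fun v hv => ?_⟩
    · show ev _ a _ = 0
      rw [key]; simpa using hw
    · have hv' : ev (rename ρ P) a v = 0 := hv
      rw [key] at hv'
      have hpv : p (v none) a := by
        by_contra hc
        exact (h (fun o => o.elim (v none) a)).2 (by simpa using hc) _ hv'
      have hxv : v none = x := hu a _ _ hpv hx
      rw [hxv] at hv'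
      have := hwu _ hv'
      funext o
      cases o with
      | none => simpa using hxv
      | some j => simpa using congrFun this j
  · rw [key] at hw
    exact (h (fun o => o.elim (w none) a)).2 (by simpa using fun hc => hn ⟨_, hc⟩) _ hw


/-- Unique existential quantifier over a finite tuple. -/
theorem SF.exT {κ : Type} [Fintype κ] {p : (κ → ℕ) → (ι → ℕ) → Prop}
    (hp : SF (fun b : κ ⊕ ι → ℕ => p (fun k => b (Sum.inl k)) (fun i => b (Sum.inr i))))
    (hu : ∀ a x y, p x a → p y a → x = y) : SF (fun a => ∃ x, p x a) := by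
  obtain ⟨m, P, h⟩ := hp
  let ρ : (κ ⊕ ι) ⊕ Fin m → ι ⊕ (κ ⊕ Fin m) := fun x =>
    match x with
    | Sum.inl (Sum.inl k) => Sum.inr (Sum.inl k)
    | Sum.inl (Sum.inr i) => Sum.inl i
    | Sum.inr j => Sum.inr (Sum.inr j)
  have key : ∀ (a : ι → ℕ) (w : κ ⊕ Fin m → ℕ),
      ev (rename ρ P) a w = ev P (Sum.elim (fun k => w (Sum.inl k)) a) (fun j => w (Sum.inr j)) := by
    intro a w
    unfold ev
    rw [eval_rename]
    congr 2
    funext x
    rcases x with (k | i) | j <;> simp [ρ]
  refine SF.of_fintype (κ := κ ⊕ Fin m) (rename ρ P)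
    (fun a => ⟨fun ⟨x, hx⟩ => ?_, fun hn w hw => ?_⟩)
  · obtain ⟨w, hw, hwu⟩ := (h (Sum.elim x a)).1 (by simpa using hx)
    refine ⟨Sum.elim x w, ?_, fun v hv => ?_⟩
    · show ev _ a _ = 0
      rw [key]; simpa using hw
    · have hv' : ev (rename ρ P) a v = 0 := hv
      rw [key] at hv'
      have hpv : p (fun k => v (Sum.inl k)) a := by
        by_contra hc
        exact (h (Sum.elim (fun k => v (Sum.inl k)) a)).2 (by simpa using hc) _ hv'
      have hxv : (fun k => v (Sum.inl k)) = x := hu a _ _ hpv hx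
      rw [hxv] at hv'
      have := hwu _ hv'
      funext o
      cases o with
      | inl k => simpa using congrFun hxv k
      | inr j => simpa using congrFun this j
  · rw [key] at hw
    exact (h (Sum.elim (fun k => w (Sum.inl k)) a)).2 (by simpa using fun hc => hn ⟨_, hc⟩) _ hw

theorem SF.true : SF (fun _ : ι → ℕ => True) :=
  (SF.poly (ι := ι) 0).congr (by simp)

theorem SF.false : SF (fun _ : ι → ℕ => False) :=
  (SF.poly (ι := ι) 1).congr (by simp)

/-- A proposition that does not depend on the inputs. -/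
theorem SF.constP (c : Prop) : SF (fun _ : ι → ℕ => c) := by
  by_cases h : c
  · exact SF.true.congr (by simp [h])
  · exact SF.false.congr (by simp [h])

theorem SF.forall_finset {α : Type*} (s : Finset α) {p : α → (ι → ℕ) → Prop}
    (hp : ∀ k ∈ s, SF (p k)) : SF (fun a => ∀ k ∈ s, p k a) := by
  classical
  induction s using Finset.induction_on with
  | empty => exact SF.true.congr (by simp)
  | insert k s hk ih =>
    have h1 := hp k (Finset.mem_insert_self _ _)
    have h2 := ih (fun j hj => hp j (Finset.mem_insert_of_mem hj))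
    exact (h1.and h2).congr (by simp)

theorem SF.forall_fintype {α : Type*} [Fintype α] {p : α → (ι → ℕ) → Prop}
    (hp : ∀ k, SF (p k)) : SF (fun a => ∀ k, p k a) :=
  (SF.forall_finset Finset.univ (fun k _ => hp k)).congr (by simp)

/-- Disjoint union. -/
theorem SF.or {p q : (ι → ℕ) → Prop} (hp : SF p) (hq : SF q) (hd : ∀ a, p a → q a → False) :
    SF (fun a => p a ∨ q a) := by
  obtain ⟨m, P, h⟩ := hp
  obtain ⟨m', Q, h'⟩ := hq
  let A : MvPolynomial (ι ⊕ (Fin m ⊕ Fin m')) ℤ :=
    (rename (Sum.map id Sum.inl) P) ^ 2 + ∑ j : Fin m', X (Sum.inr (Sum.inr j))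
  let B : MvPolynomial (ι ⊕ (Fin m ⊕ Fin m')) ℤ :=
    (rename (Sum.map id Sum.inr) Q) ^ 2 + ∑ j : Fin m, X (Sum.inr (Sum.inl j))
  have key : ∀ (a : ι → ℕ) (w : Fin m ⊕ Fin m' → ℕ), ev (A * B) a w = 0 ↔
      (ev P a (w ∘ Sum.inl) = 0 ∧ w ∘ Sum.inr = 0) ∨
        (ev Q a (w ∘ Sum.inr) = 0 ∧ w ∘ Sum.inl = 0) := by
    intro a w
    have h1 : MvPolynomial.eval (Sum.elim (fun i => (a i : ℤ)) (fun j => (w j : ℤ)))
        (rename (Sum.map id Sum.inl) P) = ev P a (w ∘ Sum.inl) := by
      unfold ev; rw [eval_rename]; congr 2; funext x; cases x <;> simp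
    have h2 : MvPolynomial.eval (Sum.elim (fun i => (a i : ℤ)) (fun j => (w j : ℤ)))
        (rename (Sum.map id Sum.inr) Q) = ev Q a (w ∘ Sum.inr) := by
      unfold ev; rw [eval_rename]; congr 2; funext x; cases x <;> simp
    have aux : ∀ (n : ℕ) (z : ℤ) (u : Fin n → ℕ),
        z ^ 2 + ∑ j, (u j : ℤ) = 0 ↔ z = 0 ∧ u = 0 := by
      intro n z u
      have hs : (0 : ℤ) ≤ ∑ j, (u j : ℤ) := Finset.sum_nonneg fun j _ => by positivity
      constructor
      · intro h0
        have hz : z ^ 2 = 0 := by nlinarith [sq_nonneg z]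
        have hs0 : ∑ j, (u j : ℤ) = 0 := by linarith
        refine ⟨by simpa using hz, funext fun j => ?_⟩
        have := (Finset.sum_eq_zero_iff_of_nonneg (fun j _ => by positivity)).1 hs0 j
          (Finset.mem_univ _)
        simpa using this
      · rintro ⟨rfl, rfl⟩; simp
    conv_lhs => unfold ev
    rw [map_mul, mul_eq_zero]
    simp only [A, B, map_add, map_pow, map_sum, eval_X, Sum.elim_inr, h1, h2]
    exact or_congr (aux m' _ (w ∘ Sum.inr)) (aux m _ (w ∘ Sum.inl))
  refine SF.of_fintype (κ := Fin m ⊕ Fin m') (A * B) (fun a => ⟨fun hpq => ?_, fun hpq w hw => ?_⟩)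
  · by_cases hpa : p a
    · have hqa : ¬ q a := fun hq => hd a hpa hq
      obtain ⟨w, hw, hu⟩ := (h a).1 hpa
      refine ⟨Sum.elim w 0, (key a _).2 (Or.inl ⟨hw, rfl⟩), fun v hv => ?_⟩
      rcases (key a v).1 hv with ⟨h1, h2⟩ | ⟨h1, _⟩
      · have e1 := hu _ h1
        funext x
        cases x with
        | inl x => simpa using congrFun e1 x
        | inr x => simpa using congrFun h2 x
      · exact absurd h1 ((h' a).2 hqa _)
    · have hqa : q a := hpq.resolve_left hpa
      obtain ⟨w, hw, hu⟩ := (h' a).1 hqa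
      refine ⟨Sum.elim 0 w, (key a _).2 (Or.inr ⟨hw, rfl⟩), fun v hv => ?_⟩
      rcases (key a v).1 hv with ⟨h1, _⟩ | ⟨h1, h2⟩
      · exact absurd h1 ((h a).2 hpa _)
      · have e1 := hu _ h1
        funext x
        cases x with
        | inl x => simpa using congrFun h2 x
        | inr x => simpa using congrFun e1 x
  · rcases (key a w).1 hw with ⟨h1, _⟩ | ⟨h1, _⟩
    · exact (h a).2 (fun hc => hpq (Or.inl hc)) _ h1
    · exact (h' a).2 (fun hc => hpq (Or.inr hc)) _ h1

/-- Substituting single-fold functions into a single-fold relation. -/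
theorem SF.subst {κ : Type} [Fintype κ] {r : (κ → ℕ) → Prop} (hr : SF r)
    {g : κ → (ι → ℕ) → ℕ} (hg : ∀ k, SFn (g k)) : SF (fun a => r (fun k => g k a)) := by
  have h1 : SF (fun b : κ ⊕ ι → ℕ => r (fun k => b (Sum.inl k))) := hr.reindex Sum.inl
  have h2 : ∀ k, SF (fun b : κ ⊕ ι → ℕ => b (Sum.inl k) = g k (fun i => b (Sum.inr i))) :=
    fun k => SF.reindex (hg k) (fun o : Option ι => o.elim (Sum.inl k) Sum.inr)
  have h3 := h1.and (SF.forall_fintype h2)
  have h4 := SF.exT (p := fun x a => r x ∧ ∀ k, x k = g k a) h3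
    (fun a x y hx hy => funext fun k => (hx.2 k).trans (hy.2 k).symm)
  refine h4.congr fun a => ⟨fun ⟨x, hx, hk⟩ => ?_, fun hx => ⟨_, hx, fun _ => rfl⟩⟩
  have : x = fun k => g k a := funext hk
  rwa [← this]

theorem SFn.proj (i : ι) : SFn (fun a : ι → ℕ => a i) :=
  (SF.poly (X none - X (some i) : MvPolynomial (Option ι) ℤ)).congr (by
    intro a; simp [sub_eq_zero])

theorem SFn.const (c : ℕ) : SFn (fun _ : ι → ℕ => c) :=
  (SF.poly (X none - C (c : ℤ) : MvPolynomial (Option ι) ℤ)).congr (by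
    intro a; simp [sub_eq_zero])

theorem SFn.reindex {ι' : Type} {f : (ι → ℕ) → ℕ} (hf : SFn f) (e : ι → ι') :
    SFn (fun b : ι' → ℕ => f (fun i => b (e i))) :=
  SF.reindex hf (fun o : Option ι => o.map e)

/-- Composition of single-fold functions. -/
theorem SFn.comp {κ : Type} [Fintype κ] {f : (κ → ℕ) → ℕ} (hf : SFn f)
    {g : κ → (ι → ℕ) → ℕ} (hg : ∀ k, SFn (g k)) : SFn (fun a => f (fun k => g k a)) := by
  have := SF.subst (ι := Option ι) (κ := Option κ) hf
    (g := fun o b => o.elim (b none) (fun k => g k (fun i => b (some i)))) (by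
      intro o
      cases o with
      | none => exact SFn.proj none
      | some k => exact (hg k).reindex some)
  exact this

/-- Binary relation applied to two single-fold functions. -/
theorem SF.rel2 {r : ℕ → ℕ → Prop} (hr : SF (fun a : Fin 2 → ℕ => r (a 0) (a 1)))
    {f g : (ι → ℕ) → ℕ} (hf : SFn f) (hg : SFn g) : SF (fun a => r (f a) (g a)) :=
  SF.subst hr (g := ![f, g]) (by intro k; fin_cases k; exacts [hf, hg])

/-- Unary function applied to a single-fold function. -/
theorem SFn.op1 {o : ℕ → ℕ} (ho : SFn (fun a : Fin 1 → ℕ => o (a 0)))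
    {f : (ι → ℕ) → ℕ} (hf : SFn f) : SFn (fun a => o (f a)) :=
  SFn.comp ho (g := fun _ => f) (fun _ => hf)

/-- Binary function applied to two single-fold functions. -/
theorem SFn.op2 {o : ℕ → ℕ → ℕ} (ho : SFn (fun a : Fin 2 → ℕ => o (a 0) (a 1)))
    {f g : (ι → ℕ) → ℕ} (hf : SFn f) (hg : SFn g) : SFn (fun a => o (f a) (g a)) :=
  SFn.comp ho (g := ![f, g]) (by intro k; fin_cases k; exacts [hf, hg])

/-- Ternary function applied to three single-fold functions. -/
theorem SFn.op3 {o : ℕ → ℕ → ℕ → ℕ} (ho : SFn (fun a : Fin 3 → ℕ => o (a 0) (a 1) (a 2)))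
    {f g k : (ι → ℕ) → ℕ} (hf : SFn f) (hg : SFn g) (hk : SFn k) :
    SFn (fun a => o (f a) (g a) (k a)) :=
  SFn.comp ho (g := ![f, g, k]) (by intro j; fin_cases j; exacts [hf, hg, hk])

variable {f g : (ι → ℕ) → ℕ}

theorem SF.eq (hf : SFn f) (hg : SFn g) : SF (fun a => f a = g a) :=
  SF.rel2 (r := fun x y => x = y)
    ((SF.poly (X 0 - X 1 : MvPolynomial (Fin 2) ℤ)).congr (by intro a; simp [sub_eq_zero])) hf hg

theorem SFn.add (hf : SFn f) (hg : SFn g) : SFn (fun a => f a + g a) :=
  SFn.op2 (o := fun x y => x + y)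
    ((SF.poly (X none - (X (some 0) + X (some 1)) : MvPolynomial (Option (Fin 2)) ℤ)).congr (by
      intro a; simp [sub_eq_zero]; norm_cast)) hf hg

theorem SFn.mul (hf : SFn f) (hg : SFn g) : SFn (fun a => f a * g a) :=
  SFn.op2 (o := fun x y => x * y)
    ((SF.poly (X none - (X (some 0) * X (some 1)) : MvPolynomial (Option (Fin 2)) ℤ)).congr (by
      intro a; simp [sub_eq_zero]; norm_cast)) hf hg

theorem SFn.pow_const (hf : SFn f) (n : ℕ) : SFn (fun a => f a ^ n) := by
  induction n with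
  | zero => exact (SFn.const 1).congr (by simp)
  | succ n ih => exact (ih.mul hf).congr (fun a => (pow_succ _ _).symm)

theorem SFn.sum {α : Type*} (s : Finset α) {F : α → (ι → ℕ) → ℕ} (hF : ∀ k ∈ s, SFn (F k)) :
    SFn (fun a => ∑ k ∈ s, F k a) := by
  classical
  induction s using Finset.induction_on with
  | empty => exact (SFn.const 0).congr (by simp)
  | insert k s hk ih =>
    exact ((hF k (Finset.mem_insert_self _ _)).add
      (ih fun j hj => hF j (Finset.mem_insert_of_mem hj))).congr (by simp [hk])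

theorem SFn.prod {α : Type*} (s : Finset α) {F : α → (ι → ℕ) → ℕ} (hF : ∀ k ∈ s, SFn (F k)) :
    SFn (fun a => ∏ k ∈ s, F k a) := by
  classical
  induction s using Finset.induction_on with
  | empty => exact (SFn.const 1).congr (by simp)
  | insert k s hk ih =>
    exact ((hF k (Finset.mem_insert_self _ _)).mul
      (ih fun j hj => hF j (Finset.mem_insert_of_mem hj))).congr (by simp [hk])

theorem SF.le (hf : SFn f) (hg : SFn g) : SF (fun a => f a ≤ g a) := by
  have h : SF (fun b : Option ι → ℕ => f (fun i => b (some i)) + b none = g (fun i => b (some i))) :=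
    SF.eq ((hf.reindex some).add (SFn.proj none)) (hg.reindex some)
  exact (SF.ex (p := fun x a => f a + x = g a) h (fun a x y hx hy => by omega)).congr
    (fun a => ⟨fun ⟨x, hx⟩ => by omega, fun h => ⟨g a - f a, by omega⟩⟩)

theorem SF.lt (hf : SFn f) (hg : SFn g) : SF (fun a => f a < g a) :=
  (SF.le (hf.add (SFn.const 1)) hg).congr (fun a => by omega)

theorem SF.ne (hf : SFn f) (hg : SFn g) : SF (fun a => f a ≠ g a) :=
  ((SF.lt hf hg).or (SF.lt hg hf) (fun a h1 h2 => by omega)).congr (fun a => by omega)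

/-- A function is single-fold as soon as a single-fold relation characterises its value. -/
theorem SFn.of_graph {r : ℕ → (ι → ℕ) → Prop}
    (hr : SF (fun b : Option ι → ℕ => r (b none) (fun i => b (some i))))
    (h : ∀ x a, r x a ↔ x = f a) : SFn f :=
  hr.congr (fun _ => h _ _)

theorem SFn.sub (hf : SFn f) (hg : SFn g) : SFn (fun a => f a - g a) := by
  refine SFn.op2 (o := fun x y => x - y) ?_ hf hg
  refine SFn.of_graph (r := fun x a => x + a 1 = a 0 ∨ (a 0 < a 1 ∧ x = 0)) ?_
    (fun x a => by omega)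
  exact (SF.eq ((SFn.proj _).add (SFn.proj _)) (SFn.proj _)).or
    ((SF.lt (SFn.proj _) (SFn.proj _)).and (SF.eq (SFn.proj _) (SFn.const 0)))
    (fun a h1 h2 => by dsimp only at h1 h2; omega)

theorem SFn.div (hf : SFn f) (hg : SFn g) : SFn (fun a => f a / g a) := by
  refine SFn.op2 (o := fun x y => x / y) ?_ hf hg
  refine SFn.of_graph
    (r := fun x a => (a 1 = 0 ∧ x = 0) ∨ (x * a 1 ≤ a 0 ∧ a 0 < (x + 1) * a 1)) ?_ (fun x a => ?_)
  · exact ((SF.eq (SFn.proj _) (SFn.const 0)).and (SF.eq (SFn.proj _) (SFn.const 0))).or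
      ((SF.le ((SFn.proj _).mul (SFn.proj _)) (SFn.proj _)).and
        (SF.lt (SFn.proj _) (((SFn.proj _).add (SFn.const 1)).mul (SFn.proj _))))
      (fun a h1 h2 => by dsimp only at h1 h2; rw [h1.1] at h2; omega)
  · rcases Nat.eq_zero_or_pos (a 1) with h0 | h0
    · simp [h0]
    · constructor
      · rintro (⟨h1, _⟩ | ⟨h1, h2⟩)
        · omega
        · exact (Nat.div_eq_of_lt_le h1 h2).symm
      · rintro rfl
        right
        refine ⟨Nat.div_mul_le_self _ _, ?_⟩
        have := Nat.lt_mul_div_succ (a 0) h0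
        rwa [mul_comm] at this

theorem SFn.mod (hf : SFn f) (hg : SFn g) : SFn (fun a => f a % g a) :=
  (hf.sub (hg.mul (hf.div hg))).congr (fun _ => (Nat.mod_def _ _).symm)

theorem SFn.max (hf : SFn f) (hg : SFn g) : SFn (fun a => max (f a) (g a)) :=
  (hf.add (hg.sub hf)).congr (fun _ => by omega)

/-- Definition by cases on a predicate whose negation is also single-fold. -/
theorem SFn.ite {p : (ι → ℕ) → Prop} [DecidablePred p] (hp : SF p) (hn : SF (fun a => ¬ p a))
    (hf : SFn f) (hg : SFn g) : SFn (fun a => if p a then f a else g a) := by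
  refine SFn.of_graph (r := fun x a => (p a ∧ x = f a) ∨ (¬ p a ∧ x = g a)) ?_
    (fun x a => by by_cases h : p a <;> simp [h])
  exact ((hp.reindex some).and hf).or ((hn.reindex some).and hg) (fun a h1 h2 => h2.1 h1.1)

theorem SFn.pow (h : PowSpec) (hf : SFn f) (hg : SFn g) : SFn (fun a => f a ^ g a) :=
  SFn.op2 (o := fun x y => x ^ y) h hf hg

/-- Coprimality is single-fold. -/
theorem SF.coprime (hf : SFn f) (hg : SFn g) : SF (fun a => Nat.Coprime (f a) (g a)) := by
  refine SF.rel2 (r := fun x y => Nat.Coprime x y) ?_ hf hg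
  have h1 : SF (fun a : Fin 2 → ℕ => ∃ u, u < a 1 ∧ a 0 * u % a 1 = 1) := by
    refine SF.ex (p := fun u a => u < a 1 ∧ a 0 * u % a 1 = 1)
      ((SF.lt (SFn.proj _) (SFn.proj _)).and
        (SF.eq (((SFn.proj _).mul (SFn.proj _)).mod (SFn.proj _)) (SFn.const 1))) ?_
    rintro a x y ⟨hx, hx1⟩ ⟨hy, hy1⟩
    have hc : Nat.Coprime (a 1) (a 0) := by
      have := Nat.coprime_of_mul_modEq_one x (a := a 0) (n := a 1) (by
        unfold Nat.ModEq; rw [hx1]
        rcases Nat.lt_or_ge 1 (a 1) with h | h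
        · rw [Nat.mod_eq_of_lt h]
        · have : a 1 = 1 := by omega
          rw [this] at hx1; omega)
      exact this.symm
    have hm : a 0 * x ≡ a 0 * y [MOD a 1] := by unfold Nat.ModEq; rw [hx1, hy1]
    have := Nat.ModEq.cancel_left_of_coprime hc hm
    exact Nat.ModEq.eq_of_lt_of_lt this hx hy
  have h2 : SF (fun a : Fin 2 → ℕ => (a 1 = 0 ∧ a 0 = 1) ∨ a 1 = 1) :=
    ((SF.eq (SFn.proj _) (SFn.const 0)).and (SF.eq (SFn.proj _) (SFn.const 1))).or
      (SF.eq (SFn.proj _) (SFn.const 1)) (fun a h1 h2 => by omega)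
  refine (h2.or h1 ?_).congr fun a => ?_
  · rintro a (⟨h0, _⟩ | h0) ⟨u, hu, hu1⟩
    · omega
    · rw [h0] at hu1; omega
  · constructor
    · rintro ((⟨h0, h1⟩ | h0) | ⟨u, hu, hu1⟩)
      · simp [h0, h1]
      · simp [h0]
      · refine Nat.coprime_of_mul_modEq_one u ?_
        unfold Nat.ModEq; rw [hu1]
        rcases Nat.lt_or_ge 1 (a 1) with h | h
        · rw [Nat.mod_eq_of_lt h]
        · have : a 1 = 1 := by omega
          rw [this] at hu1; omega
    · intro hc
      rcases Nat.lt_or_ge 1 (a 1) with h | h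
      · right
        obtain ⟨u, hu, hu1⟩ := Nat.exists_mul_mod_eq_one_of_coprime hc h
        exact ⟨u, hu, hu1⟩
      · left
        rcases Nat.eq_zero_or_pos (a 1) with h0 | h0
        · left; rw [h0] at hc; exact ⟨h0, by simpa using hc⟩
        · right; omega

end Crest.Agent.R323
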