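import Crest.Agent.R323.Api

/-!
Row 323, part D: closure of single-fold predicates under bounded universal quantifiers,
given that exponentiation is single-fold.
-/

set_option autoImplicit false

namespace Crest.Agent.R323

open MvPolynomial Finset

namespace Ball

variable {ι : Type}

/-! ### Binary digit sums -/

/-- binary digit sum -/
def s2 (n : ℕ) : ℕ := (Nat.digits 2 n).sum

lemma s2_zero : s2 0 = 0 := by simp [s2]

lemma s2_step (b x : ℕ) (hb : b < 2) : s2 (b + 2 * x) = b + s2 x := by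
  by_cases h : b ≠ 0 ∨ x ≠ 0
  · simp only [s2, Nat.digits_add 2 (by norm_num) b x hb h, List.sum_cons]
  · push Not at h
    simp [h.1, h.2, s2]

lemma s2_concat (T : ℕ) : ∀ d x : ℕ, d < 2 ^ T → s2 (d + 2 ^ T * x) = s2 d + s2 x := by
  induction T with
  | zero => intro d x hd; obtain rfl : d = 0 := by omega
            simp [s2_zero]
  | succ T ih =>
    intro d x hd
    have h1 : d + 2 ^ (T + 1) * x = d % 2 + 2 * (d / 2 + 2 ^ T * x) := by
      rw [pow_succ]; have := Nat.mod_add_div d 2; nlinarith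
    rw [h1, s2_step _ _ (Nat.mod_lt _ two_pos), ih _ _ (by rw [pow_succ] at hd; omega),
      ← add_assoc, ← s2_step _ _ (Nat.mod_lt _ two_pos), Nat.mod_add_div]

lemma s2_compl (t : ℕ) : ∀ x y : ℕ, x + y + 1 = 2 ^ t → s2 x + s2 y = t := by
  induction t with
  | zero => intro x y h; obtain ⟨rfl, rfl⟩ : x = 0 ∧ y = 0 := by omega
            simp [s2_zero]
  | succ t ih =>
    intro x y h
    rw [pow_succ] at h
    have h1 := ih (x / 2) (y / 2) (by omega)
    rw [← Nat.mod_add_div x 2, ← Nat.mod_add_div y 2, s2_step _ _ (Nat.mod_lt _ two_pos),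
      s2_step _ _ (Nat.mod_lt _ two_pos)]
    omega

lemma s2_sum {J : Type} [DecidableEq J] (T : ℕ) (s : Finset J) (idx c : J → ℕ)
    (hinj : Set.InjOn idx s) (hc : ∀ j ∈ s, c j < 2 ^ T) :
    s2 (∑ j ∈ s, c j * (2 ^ T) ^ idx j) = ∑ j ∈ s, s2 (c j) ∧
      ∀ n, (∀ j ∈ s, idx j < n) → ∑ j ∈ s, c j * (2 ^ T) ^ idx j < (2 ^ T) ^ n := by
  induction s using Finset.induction_on_max_value idx with
  | empty => simp [s2_zero]
  | insert a s ha hmax ih =>
    obtain ⟨h1, h2⟩ := ih (hinj.mono (by simp)) fun j hj => hc j (mem_insert_of_mem hj)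
    have h3 := h2 (idx a) fun j hj => lt_of_le_of_ne (hmax j hj) fun h =>
      ha (hinj (by simp [hj]) (by simp) h ▸ hj)
    rw [sum_insert ha, sum_insert ha]
    constructor
    · rw [add_comm, mul_comm, ← pow_mul, s2_concat _ _ _ (by rwa [pow_mul]), h1, add_comm]
    · intro n hn
      have h4 : (2 ^ T) ^ (idx a + 1) ≤ (2 ^ T) ^ n :=
        Nat.pow_le_pow_right (by positivity) (hn a (mem_insert_self _ _))
      have h5 := hc a (mem_insert_self _ _)
      rw [pow_succ] at h4
      have h6 := Nat.mul_le_mul_left ((2 ^ T) ^ idx a) (Nat.succ_le_of_lt h5)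
      rw [Nat.mul_succ, mul_comm] at h6
      omega

lemma s2_dig (t A : ℕ) (hA : A ≤ 2 ^ t) :
    (2 ^ t - 1) * (2 ^ t + 1 - A) < 2 ^ (2 * t) ∧
      s2 ((2 ^ t - 1) * (2 ^ t + 1 - A)) = t + if A = 0 then t else 0 := by
  obtain ⟨u, hu⟩ : ∃ u, 2 ^ t = u + 1 := ⟨2 ^ t - 1, by have := Nat.one_le_two_pow (n := t); omega⟩
  have h2 : 2 ^ (2 * t) = (u + 1) * (u + 1) := by rw [two_mul, pow_add, hu]
  constructor
  · rw [h2, hu]
    have : u + 1 + 1 - A ≤ u + 2 := by omega
    simp only [add_tsub_cancel_right]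
    nlinarith
  · split_ifs with h
    · have := s2_compl (2 * t) ((2 ^ t - 1) * (2 ^ t + 1 - A)) 0 (by
        rw [h2, hu, h]; simp only [add_tsub_cancel_right, tsub_zero]; ring)
      rw [s2_zero] at this
      omega
    · obtain ⟨x, y, hx, hy⟩ : ∃ x y, 2 ^ t + 1 - A = x + 1 ∧ u = x + y :=
        ⟨2 ^ t - A, A - 1, by omega, by omega⟩
      have h3 : (2 ^ t - 1) * (2 ^ t + 1 - A) = y + 2 ^ t * x := by
        rw [hx, hu, hy]; simp only [add_tsub_cancel_right]; ring
      rw [h3, s2_concat _ _ _ (by omega), s2_compl t y x (by omega), add_zero]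

lemma digit_extract (Q : ℕ) (n : ℕ) : ∀ (N : ℕ) (c : ℕ → ℕ), (∀ i, c i < Q) → n < N →
    (∑ i ∈ range N, c i * Q ^ i) / Q ^ n % Q = c n := by
  induction n with
  | zero =>
    intro N c hc hN
    obtain ⟨N, rfl⟩ : ∃ N', N = N' + 1 := ⟨N - 1, by omega⟩
    simp only [sum_range_succ', pow_succ, ← mul_assoc, ← sum_mul]
    simp [Nat.mod_eq_of_lt (hc 0)]
  | succ n ih =>
    intro N c hc hN
    obtain ⟨N, rfl⟩ : ∃ N', N = N' + 1 := ⟨N - 1, by omega⟩
    have hQ : 0 < Q := lt_of_le_of_lt (Nat.zero_le _) (hc 0)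
    rw [pow_succ', ← Nat.div_div_eq_div_mul, ← ih N (fun i => c (i + 1)) (fun i => hc _) (by omega)]
    congr 2
    simp only [sum_range_succ', pow_succ, ← mul_assoc, ← sum_mul, pow_zero, mul_one]
    rw [add_comm, Nat.add_mul_div_right _ _ hQ, Nat.div_eq_of_lt (hc 0), zero_add]

lemma central_eq (n : ℕ) :
    (n + n).choose n = (4 ^ n + 1 + 1) ^ (n + n) / (4 ^ n + 1) ^ n % (4 ^ n + 1) := by
  rw [add_pow, ← digit_extract (4 ^ n + 1) n (n + n + 1) (fun i => (n + n).choose i)
    (fun i => ?_) (by omega)]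
  · congr 2
    exact sum_congr rfl fun i _ => by simp [mul_comm]
  · have := Nat.choose_le_two_pow (n + n) i
    rw [pow_add, ← mul_pow] at this
    exact Nat.lt_succ_of_le this

lemma s2_iff (x n : ℕ) : (∃ u, (n + n).choose n = 2 ^ x * (2 * u + 1)) ↔ x = s2 n := by
  have h1 := sub_one_mul_padicValNat_choose_eq_sub_sum_digits' (p := 2) (k := n) (n := n)
  have h2 := s2_step 0 n two_pos
  rw [zero_add, zero_add, two_mul] at h2
  have h3 : padicValNat 2 ((n + n).choose n) = s2 n := by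
    unfold s2 at h2 ⊢
    omega
  have h4 : ∀ x u, padicValNat 2 (2 ^ x * (2 * u + 1)) = x := fun x u => by
    rw [padicValNat.mul (by positivity) (by positivity), padicValNat.prime_pow,
      padicValNat.eq_zero_of_not_dvd (by omega), add_zero]
  constructor
  · rintro ⟨u, hu⟩
    rw [← h3, hu, h4]
  · rintro rfl
    obtain ⟨k, m, ⟨u, rfl⟩, h5⟩ := Nat.exists_eq_two_pow_mul_odd
      (Nat.choose_pos (Nat.le_add_left n n)).ne'
    exact ⟨u, by rw [← h3, h5, h4]⟩

lemma sfn_s2 (hP : PowSpec) {f : (ι → ℕ) → ℕ} (hf : SFn f) : SFn fun a => s2 (f a) := by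
  refine SFn.op1 (SFn.of_graph (r := fun x a => ∃ u, (a 0 + a 0).choose (a 0) = 2 ^ x * (2 * u + 1))
    ?_ fun x a => s2_iff x (a 0)) hf
  refine SF.ex (p := fun u (b : Option (Fin 1) → ℕ) =>
    (b (some 0) + b (some 0)).choose (b (some 0)) = 2 ^ b none * (2 * u + 1)) ?_ ?_
  · simp only [central_eq]
    have h1 : SFn fun b : Option (Option (Fin 1)) → ℕ => b (some (some 0)) := SFn.proj _
    have h2 := (SFn.pow hP (SFn.const 4) h1).add (SFn.const 1)
    exact SF.eq (((SFn.pow hP (h2.add (SFn.const 1)) (h1.add h1)).div (SFn.pow hP h2 h1)).mod h2)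
      ((SFn.pow hP (SFn.const 2) (SFn.proj _)).mul
        (((SFn.const 2).mul (SFn.proj _)).add (SFn.const 1)))
  · intro a x y hx hy
    have := Nat.eq_of_mul_eq_mul_left (by positivity) (hx.symm.trans hy)
    omega

/-! ### Integer valued functions -/

/-- difference of two single-fold functions -/
def ZFn (F : (ι → ℕ) → ℤ) : Prop :=
  ∃ f g : (ι → ℕ) → ℕ, SFn f ∧ SFn g ∧ ∀ a, F a = f a - g a

variable {F G : (ι → ℕ) → ℤ}

lemma ZFn.congr (h : ZFn F) (h' : ∀ a, F a = G a) : ZFn G := by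
  rwa [← funext h']

lemma ZFn.of {f : (ι → ℕ) → ℕ} (hf : SFn f) : ZFn fun a => f a :=
  ⟨f, fun _ => 0, hf, SFn.const 0, by simp⟩

lemma ZFn.const (c : ℤ) : ZFn fun _ : ι → ℕ => c :=
  ⟨_, _, SFn.const c.toNat, SFn.const (-c).toNat, fun _ => (Int.toNat_sub_toNat_neg c).symm⟩

lemma ZFn.add (hF : ZFn F) (hG : ZFn G) : ZFn fun a => F a + G a := by
  obtain ⟨f, f', h1, h2, h3⟩ := hF
  obtain ⟨g, g', h4, h5, h6⟩ := hG
  exact ⟨_, _, h1.add h4, h2.add h5, fun a => by simp only [h3, h6]; push_cast; ring⟩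

lemma ZFn.mul (hF : ZFn F) (hG : ZFn G) : ZFn fun a => F a * G a := by
  obtain ⟨f, f', h1, h2, h3⟩ := hF
  obtain ⟨g, g', h4, h5, h6⟩ := hG
  exact ⟨_, _, (h1.mul h4).add (h2.mul h5), (h1.mul h5).add (h2.mul h4),
    fun a => by simp only [h3, h6]; push_cast; ring⟩

lemma ZFn.toNat (hF : ZFn F) : SFn fun a => (F a).toNat := by
  obtain ⟨f, f', h1, h2, h3⟩ := hF
  exact (h1.sub h2).congr fun a => by rw [h3]; omega

/-! ### Generalised geometric sums -/

lemma sfn_geom (hP : PowSpec) {q z : (ι → ℕ) → ℕ} (hq : SFn q) (hz : SFn z) (h2 : ∀ a, 2 ≤ q a)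
    (d : ℕ) : SFn fun a => ∑ j ∈ range (z a), j ^ d * q a ^ j := by
  induction d using Nat.strong_induction_on with
  | _ d ih =>
  refine ((((hz.pow_const d).mul (SFn.pow hP hq hz)).sub ((SFn.const (0 ^ d)).add (hq.mul
    (SFn.sum (range d) fun i hi => (SFn.const (d.choose i)).mul (ih i (mem_range.1 hi)))))).div
    (hq.sub (SFn.const 1))).congr fun a => ?_
  obtain ⟨r, hr⟩ : ∃ r, q a = r + 1 := ⟨q a - 1, by have := h2 a; omega⟩
  have h1 : ∑ j ∈ range (z a), (j + 1) ^ d * q a ^ (j + 1) + 0 ^ d =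
      ∑ j ∈ range (z a), j ^ d * q a ^ j + z a ^ d * q a ^ z a := by
    rw [← sum_range_succ fun j => j ^ d * q a ^ j, sum_range_succ', pow_zero, mul_one]
  have h3 : ∑ j ∈ range (z a), (j + 1) ^ d * q a ^ (j + 1) =
      q a * ∑ i ∈ range d, d.choose i * ∑ j ∈ range (z a), j ^ i * q a ^ j +
        q a * ∑ j ∈ range (z a), j ^ d * q a ^ j := by
    simp only [add_pow, one_pow, mul_one, sum_range_succ, Nat.choose_self, Nat.cast_id, mul_sum,
      add_mul, sum_mul, sum_add_distrib]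
    rw [sum_comm]
    congr 1
    · exact sum_congr rfl fun i _ => sum_congr rfl fun j _ => by ring
    · exact sum_congr rfl fun j _ => by ring
  refine Nat.div_eq_of_eq_mul_left (by have := h2 a; omega) ?_
  rw [h3] at h1
  generalize ∑ j ∈ range (z a), j ^ d * q a ^ j = S at h1 ⊢
  rw [hr] at h1 ⊢
  simp only [add_tsub_cancel_right]
  refine Nat.sub_eq_of_eq_add ?_
  linarith

variable {M : ℕ}

/-- the box with sides `s` -/
abbrev box (s : Fin M → ℕ) : Finset (Fin M → ℕ) := Fintype.piFinset fun i => range (s i)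

lemma zfn_sum (hP : PowSpec) {q s : Fin M → (ι → ℕ) → ℕ} (hq : ∀ i, SFn (q i))
    (hs : ∀ i, SFn (s i)) (h2 : ∀ i a, 2 ≤ q i a) (Q : MvPolynomial (ι ⊕ Fin M) ℤ) :
    ∀ e : Fin M → ℕ, ZFn fun a => ∑ j ∈ box fun i => s i a,
      ev Q a j * (∏ i, j i ^ e i * q i a ^ j i : ℕ) := by
  induction Q using MvPolynomial.induction_on with
  | C c =>
    intro e
    refine ((ZFn.const c).mul (ZFn.of (SFn.prod univ fun i _ =>
      sfn_geom hP (hq i) (hs i) (h2 i) (e i)))).congr fun a => ?_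
    rw [prod_univ_sum, Nat.cast_sum, mul_sum]
    simp [ev]
  | add P Q ih1 ih2 =>
    intro e
    refine ((ih1 e).add (ih2 e)).congr fun a => ?_
    simp only [ev, map_add, add_mul, sum_add_distrib]
  | mul_X P x ih =>
    intro e
    rcases x with i | i
    · refine ((ZFn.of (SFn.proj i)).mul (ih e)).congr fun a => ?_
      rw [mul_sum]
      refine sum_congr rfl fun j _ => ?_
      simp only [ev, map_mul, eval_X, Sum.elim_inl]
      ring
    · refine (ih (e + Pi.single i 1)).congr fun a => sum_congr rfl fun j _ => ?_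
      have : ∏ k, j k ^ (e + Pi.single i 1 : Fin M → ℕ) k * q k a ^ j k =
          j i * ∏ k, j k ^ e k * q k a ^ j k := by
        have h1 : j i = ∏ k, j k ^ (Pi.single i 1 : Fin M → ℕ) k := by
          rw [Fintype.prod_eq_single i fun k hk => by simp [hk]]
          simp
        rw [h1, ← prod_mul_distrib]
        exact prod_congr rfl fun k _ => by rw [Pi.add_apply, pow_add]; ring
      rw [this]
      simp only [ev, map_mul, eval_X, Sum.elim_inr]
      push_cast
      ring

lemma exists_majorant {s : Fin M → (ι → ℕ) → ℕ} (hs : ∀ i, SFn (s i))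
    (Q : MvPolynomial (ι ⊕ Fin M) ℤ) :
    ∃ B, SFn B ∧ ∀ a, ∀ j ∈ box fun i => s i a, (ev Q a j).natAbs ≤ B a := by
  induction Q using MvPolynomial.induction_on with
  | C c => exact ⟨_, SFn.const c.natAbs, fun a j _ => by simp [ev]⟩
  | add P Q ih1 ih2 =>
    obtain ⟨B, h1, h2⟩ := ih1
    obtain ⟨B', h3, h4⟩ := ih2
    refine ⟨_, h1.add h3, fun a j hj => ?_⟩
    have : ev (P + Q) a j = ev P a j + ev Q a j := by simp [ev]
    rw [this]
    exact (Int.natAbs_add_le _ _).trans (add_le_add (h2 a j hj) (h4 a j hj))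
  | mul_X P x ih =>
    obtain ⟨B, h1, h2⟩ := ih
    rcases x with i | i
    · refine ⟨_, h1.mul (SFn.proj i), fun a j hj => ?_⟩
      have : ev (P * X (Sum.inl i)) a j = ev P a j * a i := by simp [ev]
      rw [this, Int.natAbs_mul, Int.natAbs_natCast]
      exact Nat.mul_le_mul_right _ (h2 a j hj)
    · refine ⟨_, h1.mul (hs i), fun a j hj => ?_⟩
      have : ev (P * X (Sum.inr i)) a j = ev P a j * j i := by simp [ev]
      rw [this, Int.natAbs_mul, Int.natAbs_natCast]
      exact Nat.mul_le_mul (h2 a j hj) (mem_range.1 (Fintype.mem_piFinset.1 hj i)).le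

/-- the number of zeros in a box is single-fold -/
theorem sfn_count (hP : PowSpec) {s : Fin M → (ι → ℕ) → ℕ} (hs : ∀ i, SFn (s i))
    (Q : MvPolynomial (ι ⊕ Fin M) ℤ) :
    SFn fun a => ((box fun i => s i a).filter fun j => ev Q a j = 0).card := by
  obtain ⟨B, hB, hB'⟩ := exists_majorant hs Q
  set t : (ι → ℕ) → ℕ := fun a => B a ^ 2 + 1 with ht
  set Z : (ι → ℕ) → ℕ := fun a => ∑ i, s i a + 1 with hZ
  have hts : SFn t := (hB.pow_const 2).add (SFn.const 1)
  have hZs : SFn Z := (SFn.sum univ fun i _ => hs i).add (SFn.const 1)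
  have h2t : SFn fun a => 2 ^ t a := SFn.pow hP (SFn.const 2) hts
  set q : Fin M → (ι → ℕ) → ℕ := fun i a => (2 ^ (2 * t a)) ^ Z a ^ (i : ℕ) with hq
  have hqs : ∀ i, SFn (q i) := fun i =>
    SFn.pow hP (SFn.pow hP (SFn.const 2) ((SFn.const 2).mul hts)) (hZs.pow_const i)
  have hq2 : ∀ i a, 2 ≤ q i a := fun i a => by
    rw [hq]
    dsimp only
    rw [← pow_mul]
    exact Nat.le_self_pow (by simp [ht, hZ]) 2
  have h1 := ((ZFn.of (h2t.sub (SFn.const 1))).mul (((ZFn.of (h2t.add (SFn.const 1))).mul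
    (zfn_sum hP hqs hs hq2 1 0)).add ((ZFn.const (-1)).mul
      (zfn_sum hP hqs hs hq2 (Q ^ 2) 0)))).toNat
  refine (((sfn_s2 hP h1).div hts).sub (SFn.prod univ fun i _ => hs i)).congr fun a => ?_
  have hA : ∀ j ∈ box fun i => s i a, (ev Q a j).natAbs ^ 2 ≤ 2 ^ t a := fun j hj =>
    (Nat.pow_le_pow_left (hB' a j hj) 2).trans
      ((Nat.le_succ _).trans (Nat.lt_two_pow_self).le)
  have h2 := s2_sum (2 * t a) (box fun i => s i a) (fun j => ∑ i, j i * Z a ^ (i : ℕ))
    (fun j => (2 ^ t a - 1) * (2 ^ t a + 1 - (ev Q a j).natAbs ^ 2)) (by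
      intro j hj j' hj' h
      have hlt : ∀ j ∈ box fun i => s i a, ∀ i, j i < Z a := fun j hj i =>
        (mem_range.1 (Fintype.mem_piFinset.1 hj i)).trans (Nat.lt_succ_of_le
          (single_le_sum (f := fun i => s i a) (fun _ _ => Nat.zero_le _) (mem_univ i)))
      have h3 : finFunctionFinEquiv (fun i => (⟨j i, hlt j hj i⟩ : Fin (Z a))) =
          finFunctionFinEquiv (fun i => (⟨j' i, hlt j' hj' i⟩ : Fin (Z a))) := Fin.ext h
      funext i
      exact congrArg Fin.val (congrFun (finFunctionFinEquiv.injective h3) i))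
    fun j hj => (s2_dig _ _ (hA j hj)).1
  have h3 : ((2 ^ t a - 1 : ℕ) * ((2 ^ t a + 1 : ℕ) * ∑ j ∈ box fun i => s i a,
      ev 1 a j * (∏ i, j i ^ (0 : Fin M → ℕ) i * q i a ^ j i : ℕ) +
      -1 * ∑ j ∈ box fun i => s i a,
        ev (Q ^ 2) a j * (∏ i, j i ^ (0 : Fin M → ℕ) i * q i a ^ j i : ℕ)) : ℤ) =
      (∑ j ∈ box fun i => s i a, (2 ^ t a - 1) * (2 ^ t a + 1 - (ev Q a j).natAbs ^ 2) *
        (2 ^ (2 * t a)) ^ ∑ i, j i * Z a ^ (i : ℕ) : ℕ) := by
    rw [Nat.cast_sum, mul_sum, mul_sum, ← sum_add_distrib, mul_sum]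
    refine sum_congr rfl fun j hj => ?_
    have h4 : ∏ i, j i ^ (0 : Fin M → ℕ) i * q i a ^ j i =
        (2 ^ (2 * t a)) ^ ∑ i, j i * Z a ^ (i : ℕ) := by
      rw [← prod_pow_eq_pow_sum]
      exact prod_congr rfl fun i _ => by simp only [hq, Pi.zero_apply, pow_zero, one_mul,
        ← pow_mul, mul_comm (j i), mul_assoc]
    have h5 : ev 1 a j = 1 := by simp [ev]
    have h6 : ev (Q ^ 2) a j = ev Q a j ^ 2 := by simp [ev]
    rw [h4, h5, h6, Nat.cast_mul, Nat.cast_mul, Nat.cast_sub ((hA j hj).trans (Nat.le_succ _)),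
      Nat.cast_pow (ev Q a j).natAbs, Int.natAbs_sq]
    ring
  rw [h3, Int.toNat_natCast, h2.1, sum_congr rfl fun j hj => (s2_dig _ _ (hA j hj)).2,
    sum_add_distrib, ← sum_filter, sum_const, sum_const, smul_eq_mul, smul_eq_mul, ← add_mul,
    Nat.mul_div_cancel _ (by simp [ht]), Fintype.card_piFinset]
  simp

end Ball

open Ball in
theorem ballSpec (hP : PowSpec) : BallSpec := by
  intro ι p y hp hy
  obtain ⟨m, P, h⟩ := hp
  let ρ : Option ι ⊕ Fin m → Option ι ⊕ Fin (m + 1) := fun x =>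
    match x with
    | Sum.inl none => Sum.inr 0
    | Sum.inl (some i) => Sum.inl (some i)
    | Sum.inr j => Sum.inr j.succ
  have key : ∀ (b : Option ι → ℕ) (j : Fin (m + 1) → ℕ), ev (rename ρ P) b j =
      ev P (fun o => o.elim (j 0) fun i => b (some i)) (fun i => j i.succ) := by
    intro b j
    unfold ev
    rw [eval_rename]
    congr 2
    funext x
    rcases x with (_ | i) | j <;> simp [ρ]
  let Zs : ℕ → (ι → ℕ) → Finset (Fin (m + 1) → ℕ) := fun z a =>
    (box (Fin.cons (y a) fun _ => z)).filter fun j =>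
      ev P (fun o => o.elim (j 0) a) (fun i => j i.succ) = 0
  have hmem : ∀ z a j, j ∈ Zs z a ↔ (j 0 < y a ∧ ∀ i : Fin m, j i.succ < z) ∧
      ev P (fun o => o.elim (j 0) a) (fun i => j i.succ) = 0 := by
    intro z a j
    simp [Zs, Fin.forall_fin_succ]
  have hN : SFn fun b : Option ι → ℕ => (Zs (b none) fun i => b (some i)).card := by
    refine (sfn_count hP (s := Fin.cons (fun b => y fun i => b (some i)) fun _ b => b none)
      (Fin.forall_fin_succ.2 ⟨by rw [Fin.cons_zero]; exact hy.reindex some,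
        fun _ => by rw [Fin.cons_succ]; exact SFn.proj none⟩) (rename ρ P)).congr
      fun b => ?_
    congr 1
    ext j
    simp [hmem, key, Fin.forall_fin_succ]
  have hN' : ∀ {ι' : Type} {z : (ι' → ℕ) → ℕ} (e : ι → ι'), SFn z →
      SFn fun b => (Zs (z b) fun i => b (e i)).card := by
    intro ι' z e hz
    refine SFn.of_graph (r := fun x b => ∃ w, w = z b ∧ x = (Zs w fun i => b (e i)).card) ?_
      (by simp)
    refine SF.ex (p := fun w (b : Option ι' → ℕ) => w = z (fun i => b (some i)) ∧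
      b none = (Zs w fun i => b (some (e i))).card) (SF.and ?_ ?_) ?_
    · exact SF.eq (SFn.proj none) (hz.reindex fun i => some (some i))
    · exact SF.eq (SFn.proj (some none))
        (hN.reindex fun o : Option ι => o.elim none fun i => some (some (e i)))
    · intro a x y hx hy
      rw [hx.1, hy.1]
  have hmono : ∀ a z z', z ≤ z' → (Zs z a).card ≤ (Zs z' a).card := fun a z z' hz =>
    card_le_card fun j hj => by
      rw [hmem] at hj ⊢
      exact ⟨⟨hj.1.1, fun i => (hj.1.2 i).trans_le hz⟩, hj.2⟩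
  have hp : ∀ a k (w : Fin m → ℕ), ev P (fun o => o.elim k a) w = 0 → p k a := fun a k w hw => by
    by_contra hc
    exact (h fun o => o.elim k a).2 hc w hw
  have hinj : ∀ a z, Set.InjOn (fun j : Fin (m + 1) → ℕ => j 0) (Zs z a) := by
    intro a z j hj j' hj' h0
    dsimp only at h0
    rw [mem_coe, hmem] at hj hj'
    have h1 := hj.2
    rw [h0] at h1
    have h2 := ((h fun o => o.elim (j' 0) a).1 (hp a _ _ h1)).unique h1 hj'.2
    funext i
    exact Fin.cases h0 (fun i => congrFun h2 i) i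
  have himg : ∀ a z, (Zs z a).image (fun j => j 0) ⊆ range (y a) := fun a z k hk => by
    obtain ⟨j, hj, rfl⟩ := mem_image.1 hk
    exact mem_range.2 ((hmem _ _ _).1 hj).1.1
  have hle : ∀ a z, (Zs z a).card ≤ y a := fun a z => by
    simpa [card_image_of_injOn (hinj a z)] using card_le_card (himg a z)
  have hiff : ∀ a, (∃ z, (Zs z a).card = y a) ↔ ∀ k < y a, p k a := by
    intro a
    constructor
    · rintro ⟨z, hz⟩ k hk
      have h1 := eq_of_subset_of_card_le (himg a z)
        (by rw [card_image_of_injOn (hinj a z), hz, card_range])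
      obtain ⟨j, hj, rfl⟩ := mem_image.1 (h1 ▸ mem_range.2 hk)
      exact hp a _ _ ((hmem _ _ _).1 hj).2
    · intro hall
      have h1 : ∀ k, ∃ w : Fin m → ℕ, k < y a → ev P (fun o => o.elim k a) w = 0 := fun k => by
        by_cases hk : k < y a
        · obtain ⟨w, hw, -⟩ := (h fun o => o.elim k a).1 (hall k hk)
          exact ⟨w, fun _ => hw⟩
        · exact ⟨0, fun h => absurd h hk⟩
      choose w hw using h1
      refine ⟨∑ k ∈ range (y a), ∑ i, w k i + 1, le_antisymm (hle a _) ?_⟩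
      refine le_trans (card_range _).ge (card_le_card_of_injOn (fun k => Fin.cons k (w k))
        (fun k hk => ?_) fun k _ k' _ hk => by simpa using congrFun hk 0)
      rw [mem_coe, hmem]
      simp only [Fin.cons_zero, Fin.cons_succ]
      have hk' := mem_range.1 (mem_coe.1 hk)
      refine ⟨⟨hk', fun i => Nat.lt_succ_of_le (le_trans ?_ (single_le_sum
        (f := fun k => ∑ i, w k i) (fun _ _ => Nat.zero_le _) (mem_coe.1 hk)))⟩, hw k hk'⟩
      exact single_le_sum (f := fun i => w k i) (fun _ _ => Nat.zero_le _) (mem_univ i)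
  have h1 : SF fun a => (Zs 0 a).card = y a := SF.eq (hN' id (SFn.const 0)) hy
  have h2 : SF fun a => ∃ z, (Zs (z + 1) a).card = y a ∧ (Zs z a).card < y a := by
    refine SF.ex (p := fun z a => (Zs (z + 1) a).card = y a ∧ (Zs z a).card < y a)
      ((SF.eq (hN' some ((SFn.proj none).add (SFn.const 1))) (hy.reindex some)).and
        (SF.lt hN (hy.reindex some))) fun a z z' hz hz' => ?_
    rcases lt_trichotomy z z' with h3 | h3 | h3
    · have := hmono a (z + 1) z' h3; omega
    · exact h3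
    · have := hmono a (z' + 1) z h3; omega
  refine (h1.or h2 fun a h3 ⟨z, _, h4⟩ => ?_).congr fun a => ?_
  · have := hmono a 0 z (Nat.zero_le z); omega
  rw [← hiff]
  constructor
  · rintro (h3 | ⟨z, h3, -⟩)
    exacts [⟨0, h3⟩, ⟨_, h3⟩]
  · rintro ⟨z, hz⟩
    induction z with
    | zero => exact Or.inl hz
    | succ z ih =>
      rcases (hle a z).eq_or_lt with h3 | h3
      · exact ih h3
      · exact Or.inr ⟨z, hz, h3⟩

end Crest.Agent.R323
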