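import Mathlib

/-!
Row 323 (S0500, single-fold Diophantine representations): shared definitions and interfaces.
-/

namespace Crest.Agent.R323

open MvPolynomial

/-- Evaluate an integer polynomial at natural inputs `a` and natural unknowns `w`. -/
noncomputable def ev {ι κ : Type} (P : MvPolynomial (ι ⊕ κ) ℤ) (a : ι → ℕ) (w : κ → ℕ) : ℤ :=
  MvPolynomial.eval (Sum.elim (fun i => (a i : ℤ)) (fun j => (w j : ℤ))) P

/-- Single-fold Diophantine predicate on tuples of naturals. -/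
def SF {ι : Type} (p : (ι → ℕ) → Prop) : Prop :=
  ∃ (m : ℕ) (P : MvPolynomial (ι ⊕ Fin m) ℤ), ∀ a : ι → ℕ,
    (p a → ∃! w : Fin m → ℕ, ev P a w = 0) ∧ (¬ p a → ∀ w : Fin m → ℕ, ev P a w ≠ 0)

/-- Total function whose graph is single-fold Diophantine. -/
def SFn {ι : Type} (f : (ι → ℕ) → ℕ) : Prop :=
  SF (fun b : Option ι → ℕ => b none = f (fun i => b (some i)))

/-- Output of part B: a single-fold selector of quasi-polynomial size. -/
def VSpec : Prop :=
  ∃ (Sel : ℕ → ℕ → Prop) (X₀ : ℕ) (κ K : ℝ), 0 < κ ∧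
    SF (fun a : Fin 2 → ℕ => Sel (a 0) (a 1)) ∧
    (∀ X V V', Sel X V → Sel X V' → V = V') ∧
    (∀ X, X₀ ≤ X → ∃ V, Sel X V) ∧
    (∀ X V, X₀ ≤ X → Sel X V →
      0 < V ∧ κ * (Real.log X) ^ 2 ≤ Real.log V ∧ Real.log V ≤ K * (Real.log X) ^ 2)

/-- Output of part C: exponentiation is single-fold. -/
def PowSpec : Prop := SFn (fun a : Fin 2 → ℕ => a 0 ^ a 1)

/-- Output of part D: closure under bounded universal quantifiers. -/
def BallSpec : Prop :=
  ∀ (ι : Type) (p : ℕ → (ι → ℕ) → Prop) (y : (ι → ℕ) → ℕ),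
    SF (fun b : Option ι → ℕ => p (b none) (fun i => b (some i))) → SFn y →
    SF (fun a : ι → ℕ => ∀ k < y a, p k a)

/-- The rank one curve `y² = (x - 1)(x - 3)(x + 3) = x³ - x² - 9x + 9` over `ℚ`. -/
def W : WeierstrassCurve.Affine ℚ := ⟨0, -1, 0, -9, 9⟩

/-- Naive multiplicative height of a rational number. -/
def HQ (x : ℚ) : ℕ := max x.num.natAbs x.den

/-- Naive multiplicative height of a point (`1` at infinity). -/
def HP : W.Point → ℕ
  | .zero => 1
  | .some x _ _ => HQ x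

/-- Output of part B1a: approximate parallelogram law and Northcott property. -/
def HeightSpec : Prop :=
  (∃ C : ℝ, ∀ R S : W.Point,
    |Real.log (HP (R + S)) + Real.log (HP (R - S)) - 2 * (Real.log (HP R) + Real.log (HP S))| ≤ C) ∧
  (∀ B : ℕ, {R : W.Point | HP R ≤ B}.Finite)

/-- Output of part B1b (two-descent): some point `P₀` of infinite order such that every point is
`2 R' + t` or `2 R' + t + P₀` with `2 t = 0`, and the two-torsion is finite. -/
def DescentSpec : Prop :=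
  ∃ P₀ : W.Point, (∀ n : ℕ, n • P₀ = 0 → n = 0) ∧ {t : W.Point | 2 • t = 0}.Finite ∧
    ∀ R : W.Point, ∃ R' t : W.Point, 2 • t = 0 ∧ (R = 2 • R' + t ∨ R = 2 • R' + t + P₀)

/-- Output of part B1c: the group is `ℤ P ⊕ T` and heights grow quadratically. -/
def StructSpec : Prop :=
  ∃ (P : W.Point) (T : Finset W.Point) (η C : ℝ), 0 < η ∧ (0 : W.Point) ∈ T ∧
    (∀ s ∈ T, ∀ t ∈ T, s - t ∈ T) ∧
    (∀ n : ℤ, n • P ∈ T → n = 0) ∧
    (∀ R : W.Point, ∃ n : ℤ, ∃ t ∈ T, R = n • P + t) ∧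
    (∀ n : ℤ, ∀ t ∈ T, |Real.log (HP (n • P + t)) - η * (n : ℝ) ^ 2| ≤ C)

end Crest.Agent.R323
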