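import Crest.Agent.R323.Defs

/-!
Row 323, part B1b: full two-descent on `y² = (x - 1)(x - 3)(x + 3)`.
-/

set_option autoImplicit false

namespace Crest.Agent.R323

open WeierstrassCurve WeierstrassCurve.Affine

namespace Desc

lemma ns_iff (x y : ℚ) : W.Nonsingular x y ↔ y ^ 2 = x ^ 3 - x ^ 2 - 9 * x + 9 := by
  rw [← equation_iff_nonsingular_of_Δ_ne_zero, equation_iff]
  · simp only [W]
    constructor <;> intro h <;> linear_combination h
  · simp only [W, WeierstrassCurve.Δ, b₂, b₄, b₆, b₈]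
    norm_num

lemma negY_eq (x y : ℚ) : W.negY x y = -y := by simp [W, negY]

lemma addX_eq (x₁ x₂ l : ℚ) : W.addX x₁ x₂ l = l ^ 2 + 1 - x₁ - x₂ := by simp [W, addX]

lemma addY_eq (x₁ x₂ y₁ l : ℚ) :
    W.addY x₁ x₂ y₁ l = -(l * (l ^ 2 + 1 - x₁ - x₂ - x₁) + y₁) := by
  rw [addY, negY_eq, negAddY, addX_eq]

lemma slope_self {x y : ℚ} (hy : y ≠ 0) : W.slope x x y y = (3 * x ^ 2 - 2 * x - 9) / (2 * y) := by
  rw [slope_of_Y_ne rfl (by rw [negY_eq]; intro h; apply hy; linarith), negY_eq]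
  simp only [W]
  congr 1 <;> ring

lemma some_congr {x y x' y' : ℚ} (h : W.Nonsingular x y) (h' : W.Nonsingular x' y') (hx : x = x')
    (hy : y = y') : Point.some x y h = Point.some x' y' h' := by
  subst hx hy; rfl

lemma two_nsmul_some {x y : ℚ} (h : W.Nonsingular x y) (hy : y ≠ 0) :
    ∃ h', 2 • Point.some x y h = Point.some (W.addX x x (W.slope x x y y))
      (W.addY x x y (W.slope x x y y)) h' := by
  have hy' : y ≠ W.negY x y := by rw [negY_eq]; intro h; apply hy; linarith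
  exact ⟨_, by rw [two_nsmul, Point.add_self_of_Y_ne hy']⟩

/-- the chord relations -/
lemma chord {x₁ x₂ y₁ y₂ : ℚ} (h₁ : W.Nonsingular x₁ y₁) (h₂ : W.Nonsingular x₂ y₂)
    (hxy : ¬(x₁ = x₂ ∧ y₁ = W.negY x₂ y₂)) (z : ℚ) :
    z ^ 3 - z ^ 2 - 9 * z + 9 - (W.slope x₁ x₂ y₁ y₂ * (z - x₁) + y₁) ^ 2 =
      (z - x₁) * (z - x₂) * (z - W.addX x₁ x₂ (W.slope x₁ x₂ y₁ y₂)) := by
  have := congrArg (Polynomial.eval z) (addPolynomial_slope h₁.1 h₂.1 hxy)
  rw [addPolynomial_eq] at this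
  simp only [Cubic.toPoly, Polynomial.eval_neg, Polynomial.eval_add, Polynomial.eval_mul,
    Polynomial.eval_C, Polynomial.eval_X, Polynomial.eval_pow, Polynomial.eval_sub] at this
  generalize W.addX x₁ x₂ (W.slope x₁ x₂ y₁ y₂) = x₃ at *
  generalize W.slope x₁ x₂ y₁ y₂ = l at *
  simp only [W] at this
  linear_combination -this

def vx (e x : ℚ) : ℚ := if x = e then 3 * e ^ 2 - 2 * e - 9 else x - e

def val (e : ℚ) : W.Point → ℚ
  | .zero => 1
  | .some x _ _ => vx e x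

lemma vx_ne {e : ℚ} (he : 3 * e ^ 2 - 2 * e - 9 ≠ 0) (x : ℚ) : vx e x ≠ 0 := by
  unfold vx
  split_ifs with h
  · exact he
  · exact sub_ne_zero.mpr h

lemma val_ne {e : ℚ} (he : 3 * e ^ 2 - 2 * e - 9 ≠ 0) (R : W.Point) : val e R ≠ 0 := by
  cases R with
  | zero => exact one_ne_zero
  | some x y h => exact vx_ne he x

lemma vx_sq {e : ℚ} (h0 : e ^ 3 - e ^ 2 - 9 * e + 9 = 0) (he : 3 * e ^ 2 - 2 * e - 9 ≠ 0)
    {x₁ x₂ x₃ l m : ℚ} (h : ∀ z : ℚ, z ^ 3 - z ^ 2 - 9 * z + 9 - (l * z + m) ^ 2 =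
      (z - x₁) * (z - x₂) * (z - x₃)) : ∃ w, vx e x₁ * vx e x₂ * vx e x₃ = w ^ 2 := by
  have a0 := h e
  have a1 := h (e + 1)
  have a2 := h (e - 1)
  have a3 := h (e + 2)
  have d : 3 * e ^ 2 - 2 * e - 9 - 2 * l * (l * e + m) =
      (e - x₁) * (e - x₂) + (e - x₁) * (e - x₃) + (e - x₂) * (e - x₃) := by
    linear_combination a1 / 2 - a2 / 2
  have key : ∀ {x₁ x₂ x₃ : ℚ}, x₁ = e →
      e ^ 3 - e ^ 2 - 9 * e + 9 - (l * e + m) ^ 2 = (e - x₁) * (e - x₂) * (e - x₃) →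
      3 * e ^ 2 - 2 * e - 9 - 2 * l * (l * e + m) =
        (e - x₁) * (e - x₂) + (e - x₁) * (e - x₃) + (e - x₂) * (e - x₃) →
      ∃ w, vx e x₁ * vx e x₂ * vx e x₃ = w ^ 2 := by
    intro x₁ x₂ x₃ h1 a0 d
    subst h1
    have hl : l * x₁ + m = 0 := by
      have : (l * x₁ + m) ^ 2 = 0 := by linear_combination h0 - a0
      exact pow_eq_zero_iff (two_ne_zero) |>.mp this
    have d' : 3 * x₁ ^ 2 - 2 * x₁ - 9 = (x₂ - x₁) * (x₃ - x₁) := by
      linear_combination d + 2 * l * hl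
    have n2 : x₂ ≠ x₁ := by rintro rfl; exact he (by rw [d']; ring)
    have n3 : x₃ ≠ x₁ := by rintro rfl; exact he (by rw [d']; ring)
    refine ⟨(x₂ - x₁) * (x₃ - x₁), ?_⟩
    simp only [vx, if_pos, if_neg n2, if_neg n3, d']
    ring
  by_cases h1 : x₁ = e
  · exact key h1 a0 d
  by_cases h2 : x₂ = e
  · obtain ⟨w, hw⟩ := key (x₁ := x₂) (x₂ := x₁) (x₃ := x₃) h2 (by linear_combination a0)
      (by linear_combination d)
    exact ⟨w, by linear_combination hw⟩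
  by_cases h3 : x₃ = e
  · obtain ⟨w, hw⟩ := key (x₁ := x₃) (x₂ := x₁) (x₃ := x₂) h3 (by linear_combination a0)
      (by linear_combination d)
    exact ⟨w, by linear_combination hw⟩
  refine ⟨l * e + m, ?_⟩
  simp only [vx, if_neg h1, if_neg h2, if_neg h3]
  linear_combination a0 - h0

lemma hom {e : ℚ} (h0 : e ^ 3 - e ^ 2 - 9 * e + 9 = 0) (he : 3 * e ^ 2 - 2 * e - 9 ≠ 0)
    (R S : W.Point) : ∃ w, val e R * val e S * val e (R + S) = w ^ 2 := by
  cases R with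
  | zero => exact ⟨val e S, by rw [← Point.zero_def, zero_add, Point.zero_def, val]; ring⟩
  | some x₁ y₁ h₁ =>
    cases S with
    | zero => exact ⟨val e (.some x₁ y₁ h₁), by
        rw [← Point.zero_def, add_zero, Point.zero_def]; simp only [val]; ring⟩
    | some x₂ y₂ h₂ =>
      by_cases hxy : x₁ = x₂ ∧ y₁ = W.negY x₂ y₂
      · rw [Point.add_of_Y_eq hxy.1 hxy.2, Point.zero_def]
        exact ⟨vx e x₁, by simp only [val, ← hxy.1]; ring⟩
      · rw [Point.add_some hxy]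
        simp only [val]
        refine vx_sq h0 he (l := W.slope x₁ x₂ y₁ y₂)
          (m := y₁ - W.slope x₁ x₂ y₁ y₂ * x₁) fun z => ?_
        rw [← chord h₁ h₂ hxy z]; ring

lemma cl_add {e : ℚ} (h0 : e ^ 3 - e ^ 2 - 9 * e + 9 = 0) (he : 3 * e ^ 2 - 2 * e - 9 ≠ 0)
    {R S : W.Point} {d c d' k : ℚ} (hR : ∃ u, val e R = d * u ^ 2) (hS : ∃ v, val e S = c * v ^ 2)
    (hk : d * c = d' * k ^ 2) : ∃ w, val e (R + S) = d' * w ^ 2 := by
  obtain ⟨u, hu⟩ := hR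
  obtain ⟨v, hv⟩ := hS
  obtain ⟨w, hw⟩ := hom h0 he R S
  have n1 := val_ne he R
  have n2 := val_ne he S
  refine ⟨k * u * v * w / (val e R * val e S), ?_⟩
  field_simp
  have : val e R * val e S = d' * k ^ 2 * u ^ 2 * v ^ 2 := by
    rw [hu, hv]; linear_combination u ^ 2 * v ^ 2 * hk
  linear_combination (val e R * val e S) * hw + w ^ 2 * this

/-- class of a point -/
def Cl (R : W.Point) (d₁ d₂ : ℚ) : Prop :=
  (∃ u, val 1 R = d₁ * u ^ 2) ∧ ∃ v, val (-3) R = d₂ * v ^ 2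

lemma Cl.add {R S : W.Point} {d₁ d₂ c₁ c₂ : ℚ} (hR : Cl R d₁ d₂) (hS : Cl S c₁ c₂)
    (e₁ e₂ k₁ k₂ : ℚ) (h₁ : d₁ * c₁ = e₁ * k₁ ^ 2) (h₂ : d₂ * c₂ = e₂ * k₂ ^ 2) :
    Cl (R + S) e₁ e₂ :=
  ⟨cl_add (by norm_num) (by norm_num) hR.1 hS.1 h₁, cl_add (by norm_num) (by norm_num) hR.2 hS.2 h₂⟩

/-! ### arithmetic -/

lemma sqfree_part {a b z : ℤ} (ha : a ≠ 0) (h : a * b = z ^ 2) :
    ∃ (d u : ℕ), Squarefree d ∧ a.natAbs = u ^ 2 * d ∧ (d : ℤ) ∣ a ∧ (d : ℤ) ∣ b := by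
  obtain ⟨d, u, hu, hd⟩ := Nat.sq_mul_squarefree a.natAbs
  refine ⟨d, u, hd, hu.symm, Int.natCast_dvd.mpr ⟨u ^ 2, by rw [← hu]; ring⟩,
    Int.natCast_dvd.mpr ?_⟩
  have h1 : u ^ 2 * d * b.natAbs = z.natAbs ^ 2 := by
    rw [hu, ← Int.natAbs_mul, h, Int.natAbs_pow]
  have hu0 : u ≠ 0 := by
    rintro rfl
    apply ha
    simpa using hu.symm
  have hd0 : d ≠ 0 := hd.ne_zero
  obtain ⟨z', hz'⟩ : u ∣ z.natAbs :=
    (Nat.pow_dvd_pow_iff two_ne_zero).mp ⟨d * b.natAbs, by rw [← h1]; ring⟩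
  have h2 : d * b.natAbs = z' ^ 2 := by
    apply mul_left_cancel₀ (pow_ne_zero 2 hu0)
    rw [← mul_assoc, h1, hz']; ring
  obtain ⟨z'', rfl⟩ : d ∣ z' := (hd.dvd_pow_iff_dvd two_ne_zero).mp ⟨_, h2.symm⟩
  exact ⟨z'' ^ 2, mul_left_cancel₀ hd0 (by rw [h2]; ring)⟩

lemma small_div {d n : ℕ} (hd : Squarefree d) (h : d ∣ n ^ 3) : d ∣ n :=
  (hd.dvd_pow_iff_dvd three_ne_zero).mp h

lemma classes {x y : ℚ} (h : y ^ 2 = x ^ 3 - x ^ 2 - 9 * x + 9) (hy : y ≠ 0) :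
    (∃ d₁ u : ℚ, (d₁ = 1 ∨ d₁ = -1 ∨ d₁ = 2 ∨ d₁ = -2) ∧ x - 1 = d₁ * u ^ 2) ∧
    (∃ d₂ v : ℚ, (d₂ = 1 ∨ d₂ = 2 ∨ d₂ = 3 ∨ d₂ = 6) ∧ x + 3 = d₂ * v ^ 2) := by
  set p : ℤ := x.num with hp
  set q : ℤ := (x.den : ℤ) with hq
  have hq0 : 0 < q := by rw [hq]; exact_mod_cast x.den_pos
  have hq0' : (q : ℚ) ≠ 0 := by exact_mod_cast hq0.ne'
  have hx : x = p / q := by rw [hp, hq]; exact_mod_cast (Rat.num_div_den x).symm
  have hcop : IsCoprime p q := by
    rw [Int.isCoprime_iff_gcd_eq_one, hp, hq]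
    exact x.reduced
  clear_value p q
  obtain ⟨z, hz⟩ : ∃ z : ℤ, q * (p - q) * (p - 3 * q) * (p + 3 * q) = z ^ 2 := by
    have : IsSquare ((q * (p - q) * (p - 3 * q) * (p + 3 * q) : ℤ) : ℚ) := by
      refine ⟨y * q ^ 2, ?_⟩
      push_cast
      have : (p : ℚ) = x * q := by rw [hx]; field_simp
      rw [this]
      linear_combination (-(q : ℚ) ^ 4) * h
    obtain ⟨z, hz⟩ := Rat.isSquare_intCast_iff.mp this
    exact ⟨z, by rw [hz]; ring⟩
  have hy2 : 0 < y ^ 2 := by positivity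
  have hfac : y ^ 2 = (x - 1) * (x - 3) * (x + 3) := by rw [h]; ring
  have hx1 : x - 1 ≠ 0 := by intro h0; rw [hfac, h0] at hy2; simp at hy2
  have hx3 : 0 < x + 3 := by
    by_contra hn
    push Not at hn
    have : 0 ≤ (x - 1) * (x - 3) := mul_nonneg_of_nonpos_of_nonpos (by linarith) (by linarith)
    nlinarith
  have e1 : x - 1 = (q * (p - q) : ℤ) / (q : ℚ) ^ 2 := by rw [hx]; push_cast; field_simp
  have e3 : x + 3 = (q * (p + 3 * q) : ℤ) / (q : ℚ) ^ 2 := by rw [hx]; push_cast; field_simp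
  constructor
  · have ha : q * (p - q) ≠ 0 := by
      intro h0; rw [h0] at e1; simp at e1; exact hx1 (by simpa using e1)
    obtain ⟨d, u, hd, hu, h1, h2⟩ := sqfree_part (b := (p - 3 * q) * (p + 3 * q)) ha
      (by rw [← hz]; ring)
    have c1 : IsCoprime (d : ℤ) q := by
      refine IsCoprime.of_isCoprime_of_dvd_left ?_ h2
      refine IsCoprime.mul_left ?_ ?_
      · simpa [sub_eq_add_neg, ← neg_mul] using hcop.add_mul_right_left (-3)
      · exact hcop.add_mul_right_left 3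
    have h3 : (d : ℤ) ∣ p - q := c1.dvd_of_dvd_mul_left h1
    have h4 : (d : ℤ) ∣ q ^ 2 * 8 := by
      have := dvd_sub (dvd_mul_of_dvd_left h3 (p + q)) h2
      rwa [show (p - q) * (p + q) - (p - 3 * q) * (p + 3 * q) = q ^ 2 * 8 by ring] at this
    have h5 : (d : ℤ) ∣ 8 := (c1.pow_right (n := 2)).dvd_of_dvd_mul_left h4
    have h6 : d ∣ 2 := small_div hd (by exact_mod_cast h5)
    have h7 : d = 1 ∨ d = 2 := by
      exact (Nat.dvd_prime Nat.prime_two).mp h6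
    rcases Int.natAbs_eq (q * (p - q)) with h8 | h8
    · refine ⟨d, u / q, by rcases h7 with rfl | rfl <;> simp, ?_⟩
      rw [e1, h8, hu]; push_cast; ring
    · refine ⟨-d, u / q, by rcases h7 with rfl | rfl <;> simp, ?_⟩
      rw [e1, h8, hu]; push_cast; ring
  · have hpos : 0 < q * (p + 3 * q) := by
      have : (0 : ℚ) < (q * (p + 3 * q) : ℤ) := by
        rw [e3] at hx3
        exact (div_pos_iff_of_pos_right (by positivity)).mp hx3
      exact_mod_cast this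
    obtain ⟨d, u, hd, hu, h1, h2⟩ := sqfree_part (b := (p - q) * (p - 3 * q)) hpos.ne'
      (by rw [← hz]; ring)
    have c1 : IsCoprime (d : ℤ) q := by
      refine IsCoprime.of_isCoprime_of_dvd_left ?_ h2
      refine IsCoprime.mul_left ?_ ?_
      · simpa [sub_eq_add_neg] using hcop.add_mul_right_left (-1)
      · simpa [sub_eq_add_neg, ← neg_mul] using hcop.add_mul_right_left (-3)
    have h3 : (d : ℤ) ∣ p + 3 * q := c1.dvd_of_dvd_mul_left h1
    have h4 : (d : ℤ) ∣ q ^ 2 * 24 := by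
      have := dvd_sub h2 (dvd_mul_of_dvd_left h3 (p - 7 * q))
      rwa [show (p - q) * (p - 3 * q) - (p + 3 * q) * (p - 7 * q) = q ^ 2 * 24 by ring] at this
    have h5 : (d : ℤ) ∣ 24 := (c1.pow_right (n := 2)).dvd_of_dvd_mul_left h4
    have h6 : d ∣ 6 := small_div hd (dvd_trans (by exact_mod_cast h5 : d ∣ 24) (by norm_num))
    have h7 : d = 1 ∨ d = 2 ∨ d = 3 ∨ d = 6 := by
      have := Nat.le_of_dvd (by norm_num) h6
      clear * - h6 this
      interval_cases d <;> simp at h6 ⊢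
    have h8 : q * (p + 3 * q) = ((u ^ 2 * d : ℕ) : ℤ) := by
      rw [← hu, Int.natAbs_of_nonneg hpos.le]
    refine ⟨d, u / q, by rcases h7 with rfl | rfl | rfl | rfl <;> simp, ?_⟩
    rw [e3, h8]; push_cast; ring

lemma roots {x : ℚ} (h : (0 : ℚ) ^ 2 = x ^ 3 - x ^ 2 - 9 * x + 9) : x = 1 ∨ x = 3 ∨ x = -3 := by
  have : (x - 1) * (x - 3) * (x + 3) = 0 := by linear_combination -h
  rcases mul_eq_zero.mp this with h | h
  · rcases mul_eq_zero.mp h with h | h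
    · left; linarith
    · right; left; linarith
  · right; right; linarith

lemma exists_class (R : W.Point) : ∃ d₁ d₂ : ℚ, (d₁ = 1 ∨ d₁ = -1 ∨ d₁ = 2 ∨ d₁ = -2) ∧
    (d₂ = 1 ∨ d₂ = 2 ∨ d₂ = 3 ∨ d₂ = 6) ∧ Cl R d₁ d₂ := by
  cases R with
  | zero => exact ⟨1, 1, by simp, by simp, ⟨1, by simp [val]⟩, ⟨1, by simp [val]⟩⟩
  | some x y h =>
    have h' := (ns_iff x y).mp h
    by_cases hy : y = 0
    · subst hy
      rcases roots h' with rfl | rfl | rfl
      · exact ⟨-2, 1, by simp, by simp, ⟨2, by norm_num [val, vx]⟩, ⟨2, by norm_num [val, vx]⟩⟩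
      · exact ⟨2, 6, by simp, by simp, ⟨1, by norm_num [val, vx]⟩, ⟨1, by norm_num [val, vx]⟩⟩
      · exact ⟨-1, 6, by simp, by simp, ⟨2, by norm_num [val, vx]⟩, ⟨2, by norm_num [val, vx]⟩⟩
    · obtain ⟨⟨d₁, u, h₁, e₁⟩, d₂, v, h₂, e₂⟩ := classes h' hy
      have n1 : x ≠ 1 := by rintro rfl; apply hy; nlinarith
      have n3 : x ≠ -3 := by rintro rfl; apply hy; nlinarith
      exact ⟨d₁, d₂, h₁, h₂, ⟨u, by simp only [val, vx, if_neg n1, e₁]⟩,
        ⟨v, by simp only [val, vx, if_neg n3, ← e₂]; ring⟩⟩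

lemma six_int : ∀ (n : ℕ) (a b c : ℤ), c.natAbs = n → a ^ 2 + b ^ 2 = 6 * c ^ 2 → c = 0 := by
  intro n
  induction n using Nat.strong_induction_on with
  | _ n ih =>
    intro a b c hn h
    have ha : a % 3 = 0 ∧ b % 3 = 0 := by
      have h1 : a % 3 = 0 ∨ a % 3 = 1 ∨ a % 3 = 2 := by omega
      have h2 : b % 3 = 0 ∨ b % 3 = 1 ∨ b % 3 = 2 := by omega
      have h3 : (a ^ 2 + b ^ 2) % 3 = 0 := by rw [h]; omega
      rcases h1 with h1 | h1 | h1 <;> rcases h2 with h2 | h2 | h2 <;>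
        simp [pow_two, Int.add_emod, Int.mul_emod, h1, h2] at h3 ⊢
    obtain ⟨a', rfl⟩ := Int.dvd_of_emod_eq_zero ha.1
    obtain ⟨b', rfl⟩ := Int.dvd_of_emod_eq_zero ha.2
    have hc : (3 : ℤ) ∣ c := by
      refine Int.prime_three.dvd_of_dvd_pow (n := 2) ?_
      exact ⟨c ^ 2 - (a' ^ 2 + b' ^ 2), by linarith⟩
    obtain ⟨c', rfl⟩ := hc
    by_contra h0
    have h1 : c' ≠ 0 := by rintro rfl; simp at h0
    exact h1 (ih c'.natAbs (by rw [← hn, Int.natAbs_mul]; have := Int.natAbs_pos.mpr h1; simp; omega)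
      a' b' c' rfl (by linarith))

lemma six_rat (v w : ℚ) : v ^ 2 + w ^ 2 ≠ 6 := by
  intro h
  have hv : (v.num : ℚ) = v * v.den := by rw [Rat.mul_den_eq_num]
  have hw : (w.num : ℚ) = w * w.den := by rw [Rat.mul_den_eq_num]
  have : ((v.num * w.den) ^ 2 + (w.num * v.den) ^ 2 : ℤ) = 6 * (v.den * w.den : ℤ) ^ 2 := by
    apply Int.cast_injective (α := ℚ)
    push_cast
    rw [hv, hw]
    linear_combination ((v.den : ℚ) * w.den) ^ 2 * h
  have := six_int _ _ _ _ rfl this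
  exact mul_ne_zero (by exact_mod_cast v.den_nz) (by exact_mod_cast w.den_nz) this

lemma not_sq (n : ℕ) (hn : ¬ IsSquare n) (u : ℚ) : (n : ℚ) ≠ u ^ 2 := fun h =>
  hn (Rat.isSquare_natCast_iff.mp ⟨u, by rw [h]; ring⟩)

lemma not_cl (R : W.Point) : ¬ Cl R (-1) 1 := by
  rintro ⟨⟨u, hu⟩, v, hv⟩
  cases R with
  | zero => simp only [val] at hu; nlinarith [sq_nonneg u]
  | some x y h =>
    have h' := (ns_iff x y).mp h
    simp only [val, vx] at hu hv
    by_cases h1 : x = 1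
    · rw [if_pos h1] at hu
      exact not_sq 8 (by norm_num) u (by push_cast; linarith)
    by_cases h3 : x = -3
    · rw [if_pos h3] at hv
      exact not_sq 24 (by norm_num) v (by push_cast; linarith)
    rw [if_neg h1] at hu
    rw [if_neg h3] at hv
    have hu0 : u ≠ 0 := by rintro rfl; apply h1; linarith
    have hv0 : v ≠ 0 := by rintro rfl; apply h3; linarith
    refine six_rat v (y / (u * v)) ?_
    field_simp
    have e1 : u ^ 2 = 1 - x := by linarith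
    have e2 : v ^ 2 = x + 3 := by linarith
    have e3 : v ^ 4 = (x + 3) ^ 2 := by rw [← e2]; ring
    rw [e1, e2, e3, h']; ring

lemma halve (R : W.Point) (hR : Cl R 1 1) : ∃ R' : W.Point, R = 2 • R' := by
  obtain ⟨⟨u, hu⟩, v, hv⟩ := hR
  cases R with
  | zero => exact ⟨0, by rw [nsmul_zero]; rfl⟩
  | some x y h =>
    have h' := (ns_iff x y).mp h
    simp only [val, vx] at hu hv
    have h1 : x ≠ 1 := by
      intro h1; rw [if_pos h1] at hu; nlinarith [sq_nonneg u]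
    rw [if_neg h1] at hu
    have h3 : x ≠ -3 := by
      intro h3; rw [h3] at hu; nlinarith [sq_nonneg u]
    rw [if_neg h3] at hv
    have hu0 : u ≠ 0 := by rintro rfl; apply h1; linarith
    have hv0 : v ≠ 0 := by rintro rfl; apply h3; linarith
    have e1 : u ^ 2 = x - 1 := by linarith
    have e3 : v ^ 2 = x + 3 := by linarith
    obtain ⟨r, hr⟩ : ∃ r, y = u * r * v := ⟨y / (u * v), by field_simp⟩
    have e2 : r ^ 2 = x - 3 := by
      apply mul_left_cancel₀ (mul_ne_zero (pow_ne_zero 2 hu0) (pow_ne_zero 2 hv0))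
      have : y ^ 2 = u ^ 2 * v ^ 2 * r ^ 2 := by rw [hr]; ring
      rw [← this, h', e1, e3]; ring
    have n1 : u + r ≠ 0 := by
      intro h0; have : r = -u := by linarith
      rw [this] at e2; nlinarith
    have n2 : u + v ≠ 0 := by
      intro h0; have : v = -u := by linarith
      rw [this] at e3; nlinarith
    have n3 : r + v ≠ 0 := by
      intro h0; have : v = -r := by linarith
      rw [this] at e3; nlinarith
    set x' := x + (u * r + u * v + r * v) with hx'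
    set y' := (u + r) * (u + v) * (r + v) with hy'
    have f1 : x' - 1 = (u + r) * (u + v) := by rw [hx']; linear_combination -e1
    have f2 : x' - 3 = (u + r) * (r + v) := by rw [hx']; linear_combination -e2
    have f3 : x' + 3 = (u + v) * (r + v) := by rw [hx']; linear_combination -e3
    have hns : W.Nonsingular x' y' := by
      rw [ns_iff]
      have : x' ^ 3 - x' ^ 2 - 9 * x' + 9 = (x' - 1) * (x' - 3) * (x' + 3) := by ring
      rw [this, f1, f2, f3, hy']; ring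
    have hy0 : y' ≠ 0 := mul_ne_zero (mul_ne_zero n1 n2) n3
    have hs : W.slope x' x' y' y' = u + r + v := by
      rw [slope_self hy0, div_eq_iff (mul_ne_zero two_ne_zero hy0)]
      have : 3 * x' ^ 2 - 2 * x' - 9 = (x' - 1) * (x' - 3) + (x' - 1) * (x' + 3)
        + (x' - 3) * (x' + 3) := by ring
      rw [this, f1, f2, f3, hy']; ring
    obtain ⟨h'', e⟩ := two_nsmul_some hns hy0
    refine ⟨_, (some_congr h h'' ?_ ?_).trans e.symm⟩
    · rw [hs, addX_eq, hx']; linear_combination -e1 - e2 - e3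
    · rw [hs, addY_eq, hx', hy', hr]
      linear_combination (u + r + v) * (e1 + e2 + e3)

/-! ### the special points -/

def T1 : W.Point := .some 1 0 (by rw [ns_iff]; norm_num)
def T2 : W.Point := .some 3 0 (by rw [ns_iff]; norm_num)
def T3 : W.Point := .some (-3) 0 (by rw [ns_iff]; norm_num)
def P0 : W.Point := .some 0 3 (by rw [ns_iff]; norm_num)

lemma two_root {x : ℚ} (h : W.Nonsingular x 0) : 2 • Point.some x 0 h = 0 := by
  rw [two_nsmul, Point.add_self_of_Y_eq (by rw [negY_eq, neg_zero])]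

lemma cl_T1 : Cl T1 (-2) 1 := ⟨⟨2, by norm_num [T1, val, vx]⟩, ⟨2, by norm_num [T1, val, vx]⟩⟩
lemma cl_T3 : Cl T3 (-1) 6 := ⟨⟨2, by norm_num [T3, val, vx]⟩, ⟨2, by norm_num [T3, val, vx]⟩⟩
lemma cl_P0 : Cl P0 (-1) 3 := ⟨⟨1, by norm_num [P0, val, vx]⟩, ⟨1, by norm_num [P0, val, vx]⟩⟩

def Good (R : W.Point) : Prop :=
  ∃ R' t : W.Point, 2 • t = 0 ∧ (R = 2 • R' + t ∨ R = 2 • R' + t + P0)

lemma Good.of_add_tors {R T : W.Point} (hT : 2 • T = 0) (h : Good (R + T)) : Good R := by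
  obtain ⟨R', t, ht, h⟩ := h
  refine ⟨R', t - T, by rw [nsmul_sub, ht, hT, sub_zero], ?_⟩
  rcases h with h | h
  · left; rw [← add_sub_cancel_right R T, h]; abel
  · right; rw [← add_sub_cancel_right R T, h]; abel

lemma Good.of_add_P0 {R : W.Point} (h : Good (R + P0)) : Good R := by
  obtain ⟨R', t, ht, h⟩ := h
  rcases h with h | h
  · refine ⟨R' - P0, t, ht, Or.inr ?_⟩
    rw [← add_sub_cancel_right R P0, h, nsmul_sub, two_nsmul P0]; abel
  · exact ⟨R', t, ht, Or.inl (add_right_cancel h)⟩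

lemma good (R : W.Point) : Good R := by
  have g1 : ∀ R d, (d = 1 ∨ d = -1) → Cl R d 1 → Good R := by
    rintro R d (rfl | rfl) h
    · obtain ⟨R', h⟩ := halve R h
      exact ⟨R', 0, nsmul_zero _, Or.inl (by rw [add_zero]; exact h)⟩
    · exact absurd h (not_cl R)
  have g2 : ∀ R d, (d = 1 ∨ d = -1 ∨ d = 2 ∨ d = -2) → Cl R d 1 → Good R := by
    rintro R d (rfl | rfl | rfl | rfl) h
    · exact g1 R _ (Or.inl rfl) h
    · exact g1 R _ (Or.inr rfl) h
    · exact Good.of_add_tors (two_root _)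
        (g1 _ _ (Or.inr rfl) (h.add cl_T1 (-1) 1 2 1 (by norm_num) (by norm_num)))
    · exact Good.of_add_tors (two_root _)
        (g1 _ _ (Or.inl rfl) (h.add cl_T1 1 1 2 1 (by norm_num) (by norm_num)))
  have neg : ∀ d : ℚ, (d = 1 ∨ d = -1 ∨ d = 2 ∨ d = -2) →
      (-d = 1 ∨ -d = -1 ∨ -d = 2 ∨ -d = -2) := by
    rintro d (rfl | rfl | rfl | rfl) <;> simp
  have g3 : ∀ R d, (d = 1 ∨ d = -1 ∨ d = 2 ∨ d = -2) → Cl R d 3 → Good R := fun R d hd h =>
    Good.of_add_P0 (g2 _ _ (neg d hd) (h.add cl_P0 (-d) 1 1 3 (by ring) (by norm_num)))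
  obtain ⟨d₁, d₂, h₁, rfl | rfl | rfl | rfl, h⟩ := exists_class R
  · exact g2 R _ h₁ h
  · exact Good.of_add_tors (two_root _)
      (g3 _ _ (neg d₁ h₁) (h.add cl_T3 (-d₁) 3 1 2 (by ring) (by norm_num)))
  · exact g3 R _ h₁ h
  · exact Good.of_add_tors (two_root _)
      (g2 _ _ (neg d₁ h₁) (h.add cl_T3 (-d₁) 1 1 6 (by ring) (by norm_num)))

lemma tors_finite : {t : W.Point | 2 • t = 0}.Finite := by
  refine (Set.toFinite ({0, T1, T2, T3} : Set W.Point)).subset ?_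
  intro t ht
  cases t with
  | zero => left; rfl
  | some x y h =>
    by_cases hy : y = 0
    · subst hy
      rcases roots ((ns_iff x 0).mp h) with rfl | rfl | rfl
      · right; left; rfl
      · right; right; left; rfl
      · right; right; right; rfl
    · obtain ⟨h', e⟩ := two_nsmul_some h hy
      have ht' : 2 • Point.some x y h = 0 := ht
      rw [e] at ht'
      exact absurd ht' (Point.some_ne_zero _)

/-! ### infinite order -/

def Q (k : ℕ) (R : W.Point) : Prop :=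
  ∃ (x y : ℚ) (h : W.Nonsingular x y) (a b : ℤ), R = .some x y h ∧ Odd a ∧ Odd b ∧
    x * (4 ^ k * b) = a

lemma dbl_x {x y : ℚ} (h : W.Nonsingular x y) (hy : y ≠ 0) :
    W.addX x x (W.slope x x y y) * (4 * (x ^ 3 - x ^ 2 - 9 * x + 9)) =
      x ^ 4 + 18 * x ^ 2 - 72 * x + 117 := by
  have h' := (ns_iff x y).mp h
  rw [addX_eq, slope_self hy, ← h']
  field_simp
  linear_combination (16 - 32 * x) * h'

lemma Q.dbl {k : ℕ} {R : W.Point} (hR : Q (k + 1) R) : Q (k + 2) (2 • R) := by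
  obtain ⟨x, y, h, a, b, rfl, ha, hb, e⟩ := hR
  have h' := (ns_iff x y).mp h
  obtain ⟨N, hN⟩ : ∃ N : ℤ, (4 : ℤ) ^ (k + 1) = 2 * N := ⟨2 * 4 ^ k, by ring⟩
  have hN' : (4 : ℚ) ^ (k + 1) = 2 * N := by exact_mod_cast hN
  have oc : Odd (a ^ 3 + 2 * (-a ^ 2 * N * b - 18 * a * N ^ 2 * b ^ 2 + 36 * N ^ 3 * b ^ 3)) :=
    ha.pow.add_even (even_two_mul _)
  have ec : (x ^ 3 - x ^ 2 - 9 * x + 9) * (2 * N * b) ^ 3 =
      ((a ^ 3 + 2 * (-a ^ 2 * N * b - 18 * a * N ^ 2 * b ^ 2 + 36 * N ^ 3 * b ^ 3) : ℤ) : ℚ) := by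
    push_cast
    rw [← e, hN']; ring
  have hy : y ≠ 0 := by
    rintro rfl
    rw [← h'] at ec
    have : (a ^ 3 + 2 * (-a ^ 2 * N * b - 18 * a * N ^ 2 * b ^ 2 + 36 * N ^ 3 * b ^ 3) : ℤ) = 0 := by
      apply Int.cast_injective (α := ℚ)
      rw [← ec]; simp
    rw [this] at oc
    exact absurd oc (by decide)
  obtain ⟨h'', e2⟩ := two_nsmul_some h hy
  refine ⟨_, _, h'', a ^ 4 + 2 * (36 * a ^ 2 * N ^ 2 * b ^ 2 - 288 * a * N ^ 3 * b ^ 3
    + 936 * N ^ 4 * b ^ 4), b * (a ^ 3 + 2 * (-a ^ 2 * N * b - 18 * a * N ^ 2 * b ^ 2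
    + 36 * N ^ 3 * b ^ 3)), e2, ha.pow.add_even (even_two_mul _), hb.mul oc, ?_⟩
  have d := dbl_x h hy
  rw [Int.cast_mul, ← ec, pow_succ (4 : ℚ) (k + 1), hN']
  push_cast
  rw [← e, hN']
  linear_combination (2 * (N : ℚ) * b) ^ 4 * d

lemma Q.unique {k l : ℕ} {R : W.Point} (h1 : Q k R) (h2 : Q l R) : k = l := by
  have key : ∀ {k l : ℕ}, Q k R → Q l R → ¬ k < l := by
    intro k l h1 h2 hlt
    obtain ⟨x, y, h, a, b, rfl, ha, hb, e⟩ := h1
    obtain ⟨x', y', h', a', b', e0, ha', hb', e'⟩ := h2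
    obtain ⟨rfl, rfl⟩ := Point.some.inj e0
    obtain ⟨j, rfl⟩ : ∃ j, l = k + j + 1 := ⟨l - k - 1, by omega⟩
    have : a' * b = 2 * (2 * 4 ^ j * a * b') := by
      apply Int.cast_injective (α := ℚ)
      push_cast
      rw [← e, ← e']; ring
    have o := ha'.mul hb
    rw [this] at o
    exact (Int.not_odd_iff_even.mpr (even_two_mul _)) o
  have := key h1 h2
  have := key h2 h1
  omega

lemma Q_pow (j : ℕ) : Q (j + 1) (2 ^ (j + 1) • P0) := by
  induction j with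
  | zero =>
    have h0 : W.Nonsingular 0 3 := by rw [ns_iff]; norm_num
    obtain ⟨h', e⟩ := two_nsmul_some h0 (by norm_num)
    refine ⟨_, _, h', 13, 1, e, by decide, by decide, ?_⟩
    have := dbl_x h0 (by norm_num)
    push_cast
    linear_combination this / 9
  | succ j ih =>
    have := ih.dbl
    rwa [← mul_nsmul', ← pow_succ'] at this

lemma inf_order (n : ℕ) (hn : n • P0 = 0) : n = 0 := by
  by_contra h0
  have hpos : 0 < n := Nat.pos_of_ne_zero h0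
  obtain ⟨i, j, hij, e⟩ := Finite.exists_ne_map_eq_of_infinite
    (fun j : ℕ => (⟨2 ^ (j + 1) % n, Nat.mod_lt _ hpos⟩ : Fin n))
  have e' : 2 ^ (i + 1) % n = 2 ^ (j + 1) % n := congrArg Fin.val e
  have h1 := Q_pow i
  rw [nsmul_eq_mod_nsmul _ hn, e', ← nsmul_eq_mod_nsmul _ hn] at h1
  have := h1.unique (Q_pow j)
  omega

end Desc

theorem descentSpec : DescentSpec :=
  ⟨Desc.P0, Desc.inf_order, Desc.tors_finite, Desc.good⟩

end Crest.Agent.R323
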