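import Crest.Agent.R323.Api

/-!
Row 323, part E: from single-fold exponentiation and bounded quantifiers to all r.e. sets.
-/

namespace Crest.Agent.R323

open MvPolynomial

namespace Fin323

/-- base `B` digit -/
def dig (B W j : ℕ) : ℕ := W / B ^ j % B

theorem dig_zero (B W : ℕ) : dig B W 0 = W % B := by simp [dig]

theorem dig_succ (B W j : ℕ) : dig B W (j + 1) = dig B (W / B) j := by
  simp [dig, pow_succ', Nat.div_div_eq_div_mul]

theorem dig_inj {B : ℕ} (k : ℕ) : ∀ W W' : ℕ, W < B ^ k → W' < B ^ k →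
    (∀ j < k, dig B W j = dig B W' j) → W = W' := by
  induction k with
  | zero => intro W W' h h' _; simp at h h'; omega
  | succ k ih =>
    intro W W' h h' hd
    have h0 := hd 0 (Nat.succ_pos k)
    rw [dig_zero, dig_zero] at h0
    have h1 : W / B = W' / B := by
      refine ih _ _ (Nat.div_lt_of_lt_mul (by rwa [pow_succ'] at h))
        (Nat.div_lt_of_lt_mul (by rwa [pow_succ'] at h')) fun j hj => ?_
      rw [← dig_succ, ← dig_succ]
      exact hd _ (Nat.succ_lt_succ hj)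
    rw [← Nat.mod_add_div W B, ← Nat.mod_add_div W' B, h0, h1]

theorem dig_exists {B : ℕ} (k : ℕ) : ∀ s : ℕ → ℕ, (∀ j < k, s j < B) →
    ∃ W, W < B ^ k ∧ ∀ j < k, dig B W j = s j := by
  induction k with
  | zero => intro s _; exact ⟨0, by simp, fun j hj => absurd hj (Nat.not_lt_zero _)⟩
  | succ k ih =>
    intro s hs
    obtain ⟨W, hW, hd⟩ := ih (fun j => s (j + 1)) fun j hj => hs _ (Nat.succ_lt_succ hj)
    have h0 := hs 0 (Nat.succ_pos k)
    have hB : 0 < B := by omega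
    refine ⟨s 0 + B * W, ?_, fun j hj => ?_⟩
    · rw [pow_succ']
      calc s 0 + B * W < B + B * W := by omega
        _ = B * (W + 1) := by ring
        _ ≤ B * B ^ k := Nat.mul_le_mul_left _ hW
    · cases j with
      | zero => rw [dig_zero, Nat.add_mul_mod_self_left, Nat.mod_eq_of_lt h0]
      | succ j =>
        rw [dig_succ, Nat.add_mul_div_left _ _ hB, Nat.div_eq_of_lt h0, zero_add]
        exact hd j (by omega)

theorem sfn_dig (hP : PowSpec) {ι : Type} {B W j : (ι → ℕ) → ℕ} (hB : SFn B) (hW : SFn W)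
    (hj : SFn j) : SFn fun a => dig (B a) (W a) (j a) :=
  (hW.div (SFn.pow hP hB hj)).mod hB

/-- the coding condition for a recursion -/
def Cond (f0 : ℕ) (h : ℕ → ℕ → ℕ) (y B W i : ℕ) : Prop :=
  W < B ^ (y + 1) ∧ dig B W 0 = f0 ∧ (∀ j < y, dig B W (j + 1) = h j (dig B W j)) ∧
    i ≤ y ∧ dig B W i + 1 = B ∧ ∀ j < i, dig B W j + 1 < B

theorem Cond.dig_eq {f0 : ℕ} {h : ℕ → ℕ → ℕ} {y B W i : ℕ} (c : Cond f0 h y B W i) :
    ∀ j ≤ y, dig B W j = Nat.rec f0 h j := by
  intro j hj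
  induction j with
  | zero => exact c.2.1
  | succ j ih => rw [c.2.2.1 j hj, ih (by omega)]

theorem Cond.lt {f0 : ℕ} {h : ℕ → ℕ → ℕ} {y B W i : ℕ} (c : Cond f0 h y B W i) (j : ℕ) :
    dig B W j < B := Nat.mod_lt _ (by have := c.2.2.2.2.1; omega)

theorem Cond.unique {f0 : ℕ} {h : ℕ → ℕ → ℕ} {y B W i B' W' i' : ℕ} (c : Cond f0 h y B W i)
    (c' : Cond f0 h y B' W' i') : B = B' ∧ W = W' ∧ i = i' := by
  have e : ∀ j ≤ y, dig B W j = dig B' W' j := fun j hj => by rw [c.dig_eq j hj, c'.dig_eq j hj]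
  have h1 := c.2.2.2.2.1
  have h2 := c'.2.2.2.2.1
  have h3 := e i c.2.2.2.1
  have h4 := e i' c'.2.2.2.1
  have h5 := c.lt i'
  have h6 := c'.lt i
  obtain rfl : B = B' := by omega
  refine ⟨rfl, dig_inj _ _ _ c.1 c'.1 fun j hj => e j (by omega), ?_⟩
  rcases lt_trichotomy i i' with hl | hl | hl
  · have := c'.2.2.2.2.2 i hl; omega
  · exact hl
  · have := c.2.2.2.2.2 i' hl; omega

theorem Cond.exists (f0 : ℕ) (h : ℕ → ℕ → ℕ) (y : ℕ) : ∃ B W i, Cond f0 h y B W i := by
  classical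
  set s : ℕ → ℕ := fun j => Nat.rec f0 h j with hs
  obtain ⟨i0, hi0, hmax⟩ := Finset.exists_max_image (Finset.range (y + 1)) s
    ⟨0, Finset.mem_range.2 (Nat.succ_pos y)⟩
  have hex : ∃ i, s i = s i0 := ⟨i0, rfl⟩
  have hle : Nat.find hex ≤ i0 := Nat.find_min' hex rfl
  have hi0' := Finset.mem_range.1 hi0
  obtain ⟨W, hW, hd⟩ := dig_exists (B := s i0 + 1) (y + 1) s fun j hj =>
    Nat.lt_succ_of_le (hmax j (Finset.mem_range.2 hj))
  refine ⟨s i0 + 1, W, Nat.find hex, hW, hd 0 (Nat.succ_pos y), fun j hj => ?_, by omega, ?_,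
    fun j hj => ?_⟩
  · rw [hd _ (by omega), hd _ (by omega)]
  · rw [hd _ (by omega), Nat.find_spec hex]
  · rw [hd _ (by omega)]
    have h1 := Nat.find_min hex hj
    have h2 := hmax j (Finset.mem_range.2 (by omega))
    omega

theorem sfn_natRec (hP : PowSpec) (hB : BallSpec) {ι : Type} {y f0 : (ι → ℕ) → ℕ}
    {h : ℕ → ℕ → (ι → ℕ) → ℕ} (hy : SFn y) (hf0 : SFn f0)
    (hh : ∀ (ι' : Type) (u v : (ι' → ℕ) → ℕ) (e : ι → ι'), SFn u → SFn v →
      SFn (fun c => h (u c) (v c) (fun i => c (e i)))) :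
    SFn (fun a => Nat.rec (f0 a) (fun j IH => h j IH a) (y a)) := by
  let e : ι → Fin 3 ⊕ Option ι := fun i => Sum.inr (some i)
  have tB : SFn fun b : Fin 3 ⊕ Option ι → ℕ => b (Sum.inl 0) := SFn.proj _
  have tW : SFn fun b : Fin 3 ⊕ Option ι → ℕ => b (Sum.inl 1) := SFn.proj _
  have tI : SFn fun b : Fin 3 ⊕ Option ι → ℕ => b (Sum.inl 2) := SFn.proj _
  have tO : SFn fun b : Fin 3 ⊕ Option ι → ℕ => b (Sum.inr none) := SFn.proj _
  have tY := hy.reindex e
  have tF := hf0.reindex e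
  have tJ : SFn fun c : Option (Fin 3 ⊕ Option ι) → ℕ => c none := SFn.proj _
  have c1 := SF.lt tW (SFn.pow hP tB (tY.add (SFn.const 1)))
  have c2 := SF.eq (sfn_dig hP tB tW (SFn.const 0)) tF
  have c3 := hB _ (fun j b => dig (b (Sum.inl 0)) (b (Sum.inl 1)) (j + 1) =
      h j (dig (b (Sum.inl 0)) (b (Sum.inl 1)) j) (fun i => b (e i))) _
    (SF.eq (sfn_dig hP (tB.reindex some) (tW.reindex some) (tJ.add (SFn.const 1)))
      (hh _ _ _ (fun i => some (e i)) tJ (sfn_dig hP (tB.reindex some) (tW.reindex some) tJ))) tY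
  have c4 := SF.le tI tY
  have c5 := SF.eq ((sfn_dig hP tB tW tI).add (SFn.const 1)) tB
  have c6 := hB _ (fun j b => dig (b (Sum.inl 0)) (b (Sum.inl 1)) j + 1 < b (Sum.inl 0)) _
    (SF.lt ((sfn_dig hP (tB.reindex some) (tW.reindex some) tJ).add (SFn.const 1))
      (tB.reindex some)) tI
  have c7 := SF.eq tO (sfn_dig hP tB tW tY)
  have hall := (c1.and (c2.and (c3.and (c4.and (c5.and c6))))).and c7
  have hex := SF.exT (κ := Fin 3) (ι := Option ι)
    (p := fun x b => Cond (f0 fun i => b (some i)) (fun j IH => h j IH fun i => b (some i))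
      (y fun i => b (some i)) (x 0) (x 1) (x 2) ∧
      b none = dig (x 0) (x 1) (y fun i => b (some i))) hall
    (fun b x x' hx hx' => by
      obtain ⟨h0, h1, h2⟩ := hx.1.unique hx'.1
      funext k
      fin_cases k
      exacts [h0, h1, h2])
  refine hex.congr fun b => ⟨fun ⟨x, hx, ho⟩ => ho.trans (hx.dig_eq _ le_rfl), fun ho => ?_⟩
  obtain ⟨B, W, i, hc⟩ := Cond.exists (f0 fun i => b (some i))
    (fun j IH => h j IH fun i => b (some i)) (y fun i => b (some i))
  exact ⟨![B, W, i], hc, ho.trans (hc.dig_eq _ le_rfl).symm⟩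

theorem cons_eq_ofFn {n : ℕ} (x : ℕ) (a : Fin n → ℕ) :
    x ::ᵥ List.Vector.ofFn a = List.Vector.ofFn (Fin.cons x a : Fin (n + 1) → ℕ) := rfl

theorem sfn_cons {ι : Type} {n : ℕ} {u : (ι → ℕ) → ℕ} {g : Fin n → (ι → ℕ) → ℕ} (hu : SFn u)
    (hg : ∀ k, SFn (g k)) (k : Fin (n + 1)) :
    SFn fun c => (Fin.cons (u c) (fun i => g i c) : Fin (n + 1) → ℕ) k := by
  refine Fin.cases ?_ (fun i => ?_) k
  · exact hu
  · exact hg i

theorem sfn_primrec' (hP : PowSpec) (hB : BallSpec) {n : ℕ} {f : List.Vector ℕ n → ℕ}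
    (hf : Nat.Primrec' f) : SFn fun a : Fin n → ℕ => f (List.Vector.ofFn a) := by
  induction hf with
  | zero => exact SFn.const 0
  | succ => exact ((SFn.proj 0).add (SFn.const 1)).congr fun a => by simp
  | get i => exact (SFn.proj i).congr fun a => by simp
  | comp g _ _ ihf ihg => exact SFn.comp ihf ihg
  | @prec n f g _ _ ihf ihg =>
    have := sfn_natRec hP hB (ι := Fin (n + 1)) (y := fun a => a 0)
      (f0 := fun a => f (List.Vector.ofFn fun i => a i.succ))
      (h := fun j IH a => g (j ::ᵥ IH ::ᵥ List.Vector.ofFn fun i => a i.succ))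
      (SFn.proj 0) (ihf.reindex Fin.succ) fun ι' u v e hu hv =>
        SFn.comp ihg (sfn_cons hu (sfn_cons hv fun i => SFn.proj (e i.succ)))
    exact this.congr fun a => by simp

theorem mem_mOfFn {n : ℕ} (G : Fin n → Part ℕ) (w : Fin n → ℕ) :
    List.Vector.ofFn w ∈ List.Vector.mOfFn G ↔ ∀ i, w i ∈ G i := by
  induction n with
  | zero =>
    simp only [List.Vector.mOfFn, IsEmpty.forall_iff, iff_true]
    exact Part.mem_some_iff.2 rfl
  | succ n ih =>
    simp only [List.Vector.mOfFn, Part.bind_eq_bind, Part.mem_bind_iff, Part.pure_eq_some,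
      Part.mem_some_iff, Fin.forall_fin_succ]
    constructor
    · rintro ⟨a, ha, v, hv, e⟩
      have e1 : w 0 = a := by simpa using congrArg List.Vector.head e
      have e2 : List.Vector.ofFn (fun i => w i.succ) = v := by
        simpa using congrArg List.Vector.tail e
      rw [← e2, ih] at hv
      exact ⟨e1 ▸ ha, hv⟩
    · rintro ⟨h0, h1⟩
      exact ⟨w 0, h0, _, (ih _ _).2 h1, rfl⟩

theorem sf_partrec' (hP : PowSpec) (hB : BallSpec) {n : ℕ} {f : List.Vector ℕ n →. ℕ}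
    (hf : Nat.Partrec' f) :
    SF fun b : Option (Fin n) → ℕ => b none ∈ f (List.Vector.ofFn fun i => b (some i)) := by
  induction hf with
  | prim hf => exact SF.congr (sfn_primrec' hP hB hf) fun b => Part.mem_some_iff.symm
  | @comp m n f g _ _ ihf ihg =>
    have h1 : ∀ i : Fin n, SF fun b : Fin n ⊕ Option (Fin m) → ℕ =>
        b (Sum.inl i) ∈ g i (List.Vector.ofFn fun k => b (Sum.inr (some k))) := fun i =>
      (ihg i).reindex fun o : Option (Fin m) => o.elim (Sum.inl i) fun k => Sum.inr (some k)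
    have h2 : SF fun b : Fin n ⊕ Option (Fin m) → ℕ =>
        b (Sum.inr none) ∈ f (List.Vector.ofFn fun k => b (Sum.inl k)) :=
      ihf.reindex fun o : Option (Fin n) => o.elim (Sum.inr none) Sum.inl
    have h3 := SF.exT (κ := Fin n) (ι := Option (Fin m))
      (p := fun w b => (∀ i, w i ∈ g i (List.Vector.ofFn fun k => b (some k))) ∧
        b none ∈ f (List.Vector.ofFn w)) ((SF.forall_fintype h1).and h2)
      fun b x y hx hy => funext fun i => Part.mem_unique (hx.1 i) (hy.1 i)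
    refine h3.congr fun b => ?_
    constructor
    · rintro ⟨w, hw, hx⟩
      exact Part.mem_bind_iff.2 ⟨_, (mem_mOfFn _ w).2 hw, hx⟩
    · intro hb
      obtain ⟨v, hv, hx⟩ := Part.mem_bind_iff.1 hb
      rw [← List.Vector.ofFn_get v] at hv hx
      exact ⟨_, (mem_mOfFn _ _).1 hv, hx⟩
  | @rfind n f _ ih =>
    have hf : SFn fun a : Fin (n + 1) → ℕ => f (List.Vector.ofFn a) :=
      ih.congr fun b => by simp
    have hsub : ∀ (ι' : Type) (u : (ι' → ℕ) → ℕ) (e : Fin n → ι'), SFn u →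
        SFn fun c => f (u c ::ᵥ List.Vector.ofFn fun i => c (e i)) := fun ι' u e hu =>
      SFn.comp hf (sfn_cons hu fun i => SFn.proj (e i))
    have h1 := SF.eq (hsub (Option (Fin n)) _ some (SFn.proj none)) (SFn.const 0)
    have h2 := hB (Option (Fin n))
      (fun j b => f (j ::ᵥ List.Vector.ofFn fun i => b (some i)) ≠ 0) _
      (SF.ne (hsub _ _ (fun i => some (some i)) (SFn.proj none)) (SFn.const 0)) (SFn.proj none)
    refine (h1.and h2).congr fun b => ?_
    refine Iff.trans ?_ Nat.mem_rfind.symm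
    simp

theorem sf_re (hP : PowSpec) (hB : BallSpec) {n : ℕ} {p : (Fin n → ℕ) → Prop} (hp : REPred p) :
    SF p := by
  have h1 : Partrec fun v : List.Vector ℕ n =>
      (Part.assert (p v.get) fun _ => Part.some ()).map fun _ => (0 : ℕ) :=
    (Partrec.comp hp Primrec.vector_get'.to_comp).map (Computable.const 0).to₂
  have h2 := sf_partrec' hP hB (Nat.Partrec'.part_iff.2 h1)
  have h3 := SF.subst (ι := Fin n) h2
    (g := fun o a => o.elim 0 a) fun o => by
      cases o with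
      | none => exact SFn.const 0
      | some i => exact SFn.proj i
  refine h3.congr fun a => ?_
  have : (List.Vector.ofFn a).get = a := funext fun i => List.Vector.get_ofFn a i
  simp [this]

end Fin323

theorem final (hP : PowSpec) (hB : BallSpec) (n : ℕ) (S : Set (Fin n → ℕ))
    (hS : REPred fun a => a ∈ S) :
    ∃ m : ℕ, 1 ≤ m ∧ ∃ P : MvPolynomial (Fin n ⊕ Fin m) ℤ, ∀ a : Fin n → ℕ,
      (a ∈ S → ∃! w : Fin m → ℕ,
        MvPolynomial.eval (Sum.elim (fun i => (a i : ℤ)) (fun j => (w j : ℤ))) P = 0) ∧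
      (a ∉ S → ∀ w : Fin m → ℕ,
        MvPolynomial.eval (Sum.elim (fun i => (a i : ℤ)) (fun j => (w j : ℤ))) P ≠ 0) := by
  obtain ⟨m, P, h⟩ := Fin323.sf_re hP hB hS
  have key : ∀ (a : Fin n → ℕ) (w : Fin (m + 1) → ℕ),
      MvPolynomial.eval (Sum.elim (fun i => (a i : ℤ)) (fun j => (w j : ℤ)))
        ((rename (Sum.map id Fin.succ) P) ^ 2 + X (Sum.inr 0)) = 0 ↔
      ev P a (fun j => w j.succ) = 0 ∧ w 0 = 0 := by
    intro a w
    have h1 : MvPolynomial.eval (Sum.elim (fun i => (a i : ℤ)) (fun j => (w j : ℤ)))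
        (rename (Sum.map id Fin.succ) P) = ev P a (fun j => w j.succ) := by
      unfold ev; rw [eval_rename]; congr 2; funext x; cases x <;> simp
    rw [map_add, map_pow, h1, eval_X, Sum.elim_inr]
    constructor
    · intro h0
      have h2 : (0 : ℤ) ≤ w 0 := by positivity
      have h3 := sq_nonneg (ev P a fun j => w j.succ)
      refine ⟨(pow_eq_zero_iff two_ne_zero).1 (by linarith), ?_⟩
      have : (w 0 : ℤ) = 0 := by linarith
      exact_mod_cast this
    · rintro ⟨h1, h2⟩; simp [h1, h2]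
  refine ⟨m + 1, Nat.le_add_left _ _, (rename (Sum.map id Fin.succ) P) ^ 2 + X (Sum.inr 0),
    fun a => ⟨fun ha => ?_, fun ha w hw => (h a).2 ha _ ((key a w).1 hw).1⟩⟩
  obtain ⟨w, hw, hu⟩ := (h a).1 ha
  refine ⟨Fin.cons 0 w, (key a _).2 ⟨hw, rfl⟩, fun v hv => ?_⟩
  obtain ⟨h1, h2⟩ := (key a v).1 hv
  have h3 := hu _ h1
  funext k
  refine Fin.cases ?_ (fun i => ?_) k
  · exact h2
  · exact congrFun h3 i

end Crest.Agent.R323
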