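import Crest.Agent.R323.Defs

/-!
Row 323, part B1a: approximate parallelogram law and Northcott property.
-/

set_option autoImplicit false

namespace Crest.Agent.R323

namespace Ht

open WeierstrassCurve WeierstrassCurve.Affine WeierstrassCurve.Affine.Point Height

theorem W_Δ : W.Δ = 36864 := by
  simp [W, WeierstrassCurve.Δ, WeierstrassCurve.b₂, WeierstrassCurve.b₄, WeierstrassCurve.b₆,
    WeierstrassCurve.b₈]
  norm_num

instance : WeierstrassCurve.IsElliptic W := ⟨by rw [W_Δ]; exact Ne.isUnit (by norm_num)⟩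

theorem eval_addSubMap (s t u : ℚ) :
    (fun i => (addSubMap W i).eval ![s, t, u]) =
      ![s ^ 2 + 18 * s * u - 36 * t * u + 117 * u ^ 2,
        2 * t * s - 4 * s * u - 18 * t * u + 36 * u ^ 2, t ^ 2 - 4 * s * u] := by
  ext i
  fin_cases i <;>
    simp [addSubMap, W, WeierstrassCurve.b₂, WeierstrassCurve.b₄, WeierstrassCurve.b₆,
      WeierstrassCurve.b₈] <;> ring

theorem eqn {x y : ℚ} (h : W.Nonsingular x y) : y ^ 2 = x ^ 3 - x ^ 2 - 9 * x + 9 := by
  have := (W.equation_iff x y).1 h.1
  simp only [W] at this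
  linear_combination this

theorem negY_eq (x y : ℚ) : W.negY x y = -y := by simp [W, negY]

theorem addX_eq (x x' l : ℚ) : W.addX x x' l = l ^ 2 + 1 - x - x' := by
  simp [W, addX]

theorem key_self (R : W.Point) : ∃ c : ℚ, c ≠ 0 ∧
    (fun i => (addSubMap W i).eval (R.sym2x R)) = c • (R + R).sym2x 0 := by
  rcases R with _ | ⟨x, y, h⟩
  · refine ⟨1, one_ne_zero, ?_⟩
    rw [← zero_def, add_zero, sym2x_zero_zero, eval_addSubMap]
    simp
  · have e := eqn h
    rw [sym2x_some_some, eval_addSubMap]
    by_cases hy : y = W.negY x y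
    · rw [add_self_of_Y_eq hy, sym2x_zero_zero]
      rw [negY_eq] at hy
      have hy0 : y = 0 := by linarith
      refine ⟨x ^ 4 + 18 * (x - 2) ^ 2 + 45, by positivity, ?_⟩
      rw [hy0] at e
      ext i
      fin_cases i <;> simp
      · ring
      · linear_combination -4 * e
      · ring
    · rw [add_of_Y_ne hy, sym2x_some_zero, addX_eq, slope_of_Y_ne rfl hy]
      rw [negY_eq] at hy ⊢
      have hy0 : y ≠ 0 := fun h0 => hy (by rw [h0]; simp)
      refine ⟨4 * y ^ 2, by positivity, ?_⟩
      ext i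
      fin_cases i <;> simp [W]
      · field_simp
        linear_combination (-4 + 8 * x) * 4 * e
      · linear_combination -4 * e
      · ring

theorem key (R S : W.Point) : ∃ c : ℚ, c ≠ 0 ∧
    (fun i => (addSubMap W i).eval (R.sym2x S)) = c • (R + S).sym2x (R - S) := by
  by_cases h1 : S = R
  · subst h1
    rw [sub_self]
    exact key_self S
  by_cases h2 : S = -R
  · subst h2
    rw [sym2x_neg_right, add_neg_cancel, sub_neg_eq_add, sym2x_comm 0]
    exact key_self R
  rcases R with _ | ⟨x, y, h⟩
  · rcases S with _ | ⟨x', y', h'⟩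
    · exact absurd rfl h1
    · refine ⟨1, one_ne_zero, ?_⟩
      rw [← zero_def, zero_add, zero_sub, sym2x_neg_right, sym2x_zero_some, sym2x_some_some,
        eval_addSubMap]
      ext i
      fin_cases i <;> simp <;> ring
  · rcases S with _ | ⟨x', y', h'⟩
    · refine ⟨1, one_ne_zero, ?_⟩
      rw [← zero_def, add_zero, sub_zero, sym2x_some_zero, sym2x_some_some, eval_addSubMap]
      ext i
      fin_cases i <;> simp <;> ring
    · have hx : x ≠ x' := by
        intro hx
        rcases (X_eq_iff (h₁ := h') (h₂ := h)).1 hx.symm with h3 | h3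
        · exact h1 h3
        · exact h2 h3
      have e := eqn h
      have e' := eqn h'
      have hx' : x - x' ≠ 0 := sub_ne_zero.2 hx
      rw [sub_eq_add_neg, neg_some, add_of_X_ne hx, add_of_X_ne hx, sym2x_some_some,
        sym2x_some_some, eval_addSubMap, addX_eq, addX_eq, slope_of_X_ne hx, slope_of_X_ne hx,
        negY_eq]
      refine ⟨(x - x') ^ 2, by positivity, ?_⟩
      ext i
      fin_cases i <;> simp
      · field_simp
        grind
      · field_simp
        grind
      · ring

theorem logHeight_xRep (R : W.Point) : logHeight R.xRep = Real.log (HP R) := by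
  rcases R with _ | ⟨x, y, h⟩
  · rw [← zero_def, xRep_zero]
    simp [HP]
  · rw [xRep_some, ← logHeight₁_eq_logHeight, Rat.logHeight₁_eq_log_max]
    rfl

theorem finite_HQ (B : ℕ) : {x : ℚ | HQ x ≤ B}.Finite := by
  refine (NumberField.finite_setOfPred_mulHeight₁_le (K := ℚ) (B : ℝ)).subset fun x hx => ?_
  change mulHeight₁ x ≤ B
  rw [Rat.mulHeight₁_eq_max]
  exact_mod_cast hx

theorem finite_fiber (v : Fin 2 → ℚ) : {R : W.Point | R.xRep = v}.Finite := by
  rcases Set.eq_empty_or_nonempty {R : W.Point | R.xRep = v} with h | ⟨Q, hQ⟩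
  · rw [h]
    exact Set.finite_empty
  · refine (Set.toFinite {Q, -Q}).subset fun R hR => ?_
    exact eq_or_eq_neg_of_xRep_eq_xRep (hR.trans hQ.symm)

end Ht

open Ht WeierstrassCurve WeierstrassCurve.Affine WeierstrassCurve.Affine.Point Height in
theorem heightSpec : HeightSpec := by
  constructor
  · obtain ⟨C₁, h₁⟩ := abs_logHeight_addSubMap_sub_two_mul_logHeight_le W
    obtain ⟨C₂, h₂⟩ := abs_logHeight_sym2_sub_le ℚ
    have h₃ : ∀ R S : W.Point,
        |logHeight (R.sym2x S) - (Real.log (HP R) + Real.log (HP S))| ≤ C₂ := by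
      intro R S
      rw [← logHeight_xRep, ← logHeight_xRep]
      have eR : ![R.xRep 0, R.xRep 1] = R.xRep := by ext i; fin_cases i <;> rfl
      have eS : ![S.xRep 0, S.xRep 1] = S.xRep := by ext i; fin_cases i <;> rfl
      have := h₂ (a := R.xRep 0) (b := R.xRep 1) (c := S.xRep 0) (d := S.xRep 1)
        (by rw [eR]; exact R.xRep_ne_zero) (by rw [eS]; exact S.xRep_ne_zero)
      rw [eR, eS] at this
      convert this using 4
      rcases R with _ | ⟨x, y, h⟩ <;> rcases S with _ | ⟨x', y', h'⟩ <;> simp [← zero_def]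
    refine ⟨C₁ + 3 * C₂, fun R S => ?_⟩
    obtain ⟨c, hc, h⟩ := key R S
    have a1 := h₁ (R.sym2x S)
    rw [h, logHeight_smul_eq_logHeight _ hc] at a1
    have a2 := h₃ R S
    have a3 := h₃ (R + S) (R - S)
    rw [abs_le] at *
    constructor <;> linarith [a1.1, a1.2, a2.1, a2.2, a3.1, a3.2]
  · intro B
    have h := ((finite_HQ B).biUnion fun x _ => finite_fiber ![x, 1]).insert 0
    refine h.subset ?_
    rintro (_ | ⟨x, y, hxy⟩) hR
    · exact Or.inl rfl
    · exact Or.inr (Set.mem_biUnion (x := x) hR rfl)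

end Crest.Agent.R323
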