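import Crest.Agent.R323.Api

/-!
Row 323, part C: exponentiation is single-fold, given a selector of quasi-polynomial size.
-/

namespace Crest.Agent.R323

namespace PowC

open Pell

theorem yn_bounds {a : ℕ} (a1 : 1 < a) (n : ℕ) :
    (2 * a - 1) ^ n ≤ yn a1 (n + 1) ∧ yn a1 (n + 1) ≤ (2 * a) ^ n := by
  induction n with
  | zero => simp
  | succ n ih =>
    have h1 := yn_succ_succ a1 n
    have h2 : yn a1 n ≤ yn a1 (n + 1) := (strictMono_y a1).monotone (Nat.le_succ n)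
    constructor
    · rw [pow_succ, mul_comm]
      refine (Nat.mul_le_mul_left _ ih.1).trans ?_
      rw [Nat.sub_mul, one_mul]
      show _ ≤ yn a1 (n + 2)
      omega
    · rw [pow_succ, mul_comm]
      refine le_trans ?_ (Nat.mul_le_mul_left _ ih.2)
      show yn a1 (n + 2) ≤ _
      omega

theorem pell_add {a : ℕ} (a1 : 1 < a) (n : ℕ) :
    xn a1 n ^ 2 + yn a1 n ^ 2 = a ^ 2 * yn a1 n ^ 2 + 1 := by
  have h := pell_eqz a1 n
  rw [dz_val] at h
  simp only [xz, yz, az] at h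
  zify
  linear_combination h

theorem pin {A b V n x y : ℕ} (A1 : 1 < A) (hb : b ≤ A) (hV : V ≤ 2 ^ (b - 1))
    (hp : x ^ 2 + y ^ 2 = A ^ 2 * y ^ 2 + 1) (hm : y % (A - 1) = n + 1) (hy : y < V) :
    x = xn A1 (n + 1) ∧ y = yn A1 (n + 1) := by
  have h1 : x * x - (A * A - 1) * y * y = 1 := by
    have h2 : 1 ≤ A * A := by nlinarith
    have h3 : x * x = (A * A - 1) * y * y + 1 := by
      zify [h2] at hp ⊢
      linear_combination hp
    omega
  obtain ⟨M, rfl, rfl⟩ := eq_pell A1 (x := x) (y := y) h1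
  have h4 : M % (A - 1) = n + 1 := Eq.trans (yn_modEq_a_sub_one A1 M).symm hm
  obtain rfl : M = n + 1 := by
    by_contra hne
    have h5 : A - 1 ≤ M := by
      by_contra h6
      exact hne (by rw [← h4, Nat.mod_eq_of_lt (not_le.1 h6)])
    have h6 := Nat.mod_add_div M (A - 1)
    have h7 : 1 ≤ M / (A - 1) := (Nat.le_div_iff_mul_le (by omega)).2 (by omega)
    have h8 : b - 1 + 1 ≤ M := by nlinarith [Nat.sub_add_cancel A1.le, Nat.sub_le_sub_right hb 1]
    have h9 := (strictMono_y A1).monotone h8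
    have h10 := (yn_bounds A1 (b - 1)).1
    have h11 : 2 ^ (b - 1) ≤ (2 * A - 1) ^ (b - 1) := Nat.pow_le_pow_left (by omega) _
    omega
  exact ⟨rfl, rfl⟩

theorem bern (A n : ℕ) (hA : 1 ≤ A) (b : ℝ) (hb : 0 < b) (hbA : b ≤ A) :
    ((2 * A : ℕ) : ℝ) ^ n * (1 - n / (2 * b)) ≤ ((2 * A - 1 : ℕ) : ℝ) ^ n := by
  have hA' : (0 : ℝ) < A := by exact_mod_cast hA
  have hA1 : (1 : ℝ) ≤ A := by exact_mod_cast hA
  have h1 : ((2 * A - 1 : ℕ) : ℝ) = ((2 * A : ℕ) : ℝ) * (1 + -(1 / (2 * A))) := by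
    rw [Nat.cast_sub (by omega)]
    push_cast
    field_simp
    ring
  rw [h1, mul_pow]
  gcongr
  refine le_trans ?_ (one_add_mul_le_pow (a := -(1 / (2 * (A : ℝ)))) ?_ n)
  · have : (n : ℝ) * (1 / (2 * A)) ≤ n / (2 * b) := by
      rw [mul_one_div]
      gcongr
    linarith
  · have : 1 / (2 * (A : ℝ)) ≤ 1 := by
      rw [div_le_one (by positivity)]; linarith
    linarith

theorem ratio {a b c n : ℕ} (ha : 2 ≤ a) (hb : 8 * (n + 1) * (c + 1) ≤ b) (b1 : 1 < b)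
    (ab1 : 1 < a * b) :
    (2 * c * yn b1 (n + 1) < 2 * yn ab1 (n + 1) + yn b1 (n + 1) ∧
      2 * yn ab1 (n + 1) < (2 * c + 1) * yn b1 (n + 1)) ↔ c = a ^ n := by
  have hb0 : (0 : ℝ) < b := by positivity
  obtain ⟨l1, u1⟩ := yn_bounds b1 n
  obtain ⟨l2, u2⟩ := yn_bounds ab1 n
  have e1 := bern b n b1.le b hb0 le_rfl
  have e2 := bern (a * b) n ab1.le b hb0 (by exact_mod_cast Nat.le_mul_of_pos_left b (by omega))
  set y1 := yn b1 (n + 1)
  set y2 := yn ab1 (n + 1)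
  set ε : ℝ := n / (2 * b) with hε
  have hε0 : 0 ≤ ε := by positivity
  have hε1 : (c + 1) * ε ≤ 1 / 16 := by
    rw [hε, ← mul_div_assoc, div_le_div_iff₀ (by positivity) (by norm_num)]
    have : ((8 * (n + 1) * (c + 1) : ℕ) : ℝ) ≤ b := by exact_mod_cast hb
    push_cast at this
    have : (0 : ℝ) ≤ c := Nat.cast_nonneg c
    nlinarith
  set B : ℝ := ((2 * b : ℕ) : ℝ) ^ n with hB
  have hB0 : 0 < B := by positivity
  set P : ℝ := ((a ^ n : ℕ) : ℝ) with hP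
  have hPB : ((2 * (a * b) : ℕ) : ℝ) ^ n = P * B := by
    rw [hP, hB]; push_cast; ring
  have l1' : B * (1 - ε) ≤ y1 := e1.trans (by exact_mod_cast l1)
  have u1' : (y1 : ℝ) ≤ B := by rw [hB]; exact_mod_cast u1
  have l2' : P * B * (1 - ε) ≤ y2 := by rw [← hPB]; exact e2.trans (by exact_mod_cast l2)
  have u2' : (y2 : ℝ) ≤ P * B := by rw [← hPB]; exact_mod_cast u2
  have hc0 : (0 : ℝ) ≤ c := Nat.cast_nonneg c
  have hε2 : ε ≤ 1 / 16 := by nlinarith
  have hcB : (c + 1) * ε * B ≤ 1 / 16 * B := by gcongr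
  have hεB : 0 ≤ ε * B := by positivity
  constructor
  · rintro ⟨h1, h2⟩
    have h1' : 2 * (c : ℝ) * y1 < 2 * y2 + y1 := by exact_mod_cast h1
    have h2' : 2 * (y2 : ℝ) < (2 * c + 1) * y1 := by exact_mod_cast h2
    by_contra hne
    rcases lt_or_gt_of_ne hne with h | h
    · have h3 : (c : ℝ) + 1 ≤ P := by rw [hP]; exact_mod_cast h
      have h4 : (c + 1) * (B * (1 - ε)) ≤ P * (B * (1 - ε)) := by
        have : 0 ≤ B * (1 - ε) := mul_nonneg hB0.le (by linarith)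
        gcongr
      have h5 : (2 * c + 1) * (y1 : ℝ) ≤ (2 * c + 1) * B := by gcongr
      nlinarith
    · have h3 : P + 1 ≤ c := by rw [hP]; exact_mod_cast h
      have h4 : (P + 1) * B ≤ c * B := by gcongr
      have hP0 : 0 ≤ P := by positivity
      have h5 : (2 * c - 1) * (B * (1 - ε)) ≤ (2 * c - 1) * y1 :=
        mul_le_mul_of_nonneg_left l1' (by linarith)
      nlinarith
  · intro h
    have h3 : P = c := by rw [hP, h]
    rw [h3] at l2' u2'
    have h4 : (c : ℝ) * y1 ≤ c * B := by gcongr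
    have h5 : (2 * c + 1) * (B * (1 - ε)) ≤ (2 * c + 1) * y1 := by gcongr
    constructor
    · have : 2 * (c : ℝ) * y1 < 2 * y2 + y1 := by nlinarith
      exact_mod_cast this
    · have : 2 * (y2 : ℝ) < (2 * c + 1) * y1 := by nlinarith
      exact_mod_cast this

theorem consts (Sel : ℕ → ℕ → Prop) (X₀ : ℕ) (κ K : ℝ) (hκ : 0 < κ)
    (hS : ∀ X V, X₀ ≤ X → Sel X V →
      0 < V ∧ κ * (Real.log X) ^ 2 ≤ Real.log V ∧ Real.log V ≤ K * (Real.log X) ^ 2) :
    ∃ b₀ k : ℕ, ∀ b, b₀ ≤ b → X₀ ≤ b ^ k ∧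
      ∀ V, Sel (b ^ k) V → V ≤ 2 ^ (b - 1) ∧ ∀ n, 2 ^ n ≤ b → b ^ (3 * n) < V := by
  obtain ⟨k, hk⟩ := exists_nat_ge (6 / κ + 1)
  have hk6 : 0 < 6 / κ := by positivity
  have hk1 : (1 : ℝ) ≤ k := by linarith
  have hk2 : 6 ≤ κ * (k : ℝ) ^ 2 := by
    have h1 : 6 / κ ≤ (k : ℝ) ^ 2 := by nlinarith
    rwa [div_le_iff₀' hκ] at h1
  have hc : 0 < 1 / (4 * ((|K| + 1) * (k : ℝ) ^ 2)) := by positivity
  have hev := (tendsto_natCast_atTop_atTop (R := ℝ)).eventually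
    ((Real.isLittleO_pow_log_id_atTop (n := 2)).bound hc)
  obtain ⟨b₁, hb₁⟩ := Filter.eventually_atTop.1 hev
  refine ⟨b₁ + X₀ + 2, k, fun b hb => ?_⟩
  have hX : X₀ ≤ b ^ k := le_trans (by omega) (Nat.le_self_pow (by exact_mod_cast
    (by linarith : (k : ℝ) ≠ 0)) b)
  refine ⟨hX, fun V hV => ?_⟩
  obtain ⟨hV0, h1, h2⟩ := hS _ _ hX hV
  have hV0' : (0 : ℝ) < V := by exact_mod_cast hV0
  have hb2 : (2 : ℝ) ≤ b := by exact_mod_cast (by omega : 2 ≤ b)
  have hlb : 0 < Real.log b := Real.log_pos (by linarith)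
  have hl2 := Real.log_two_gt_d9
  rw [Nat.cast_pow, Real.log_pow, mul_pow] at h1 h2
  constructor
  · have h3 := hb₁ b (by omega)
    simp only [id, Real.norm_eq_abs, Nat.abs_cast, abs_pow, sq_abs] at h3
    rw [one_div, ← div_eq_inv_mul, le_div_iff₀ (by positivity)] at h3
    have h4 : K * ((k : ℝ) ^ 2 * Real.log b ^ 2) ≤ (|K| + 1) * ((k : ℝ) ^ 2 * Real.log b ^ 2) := by
      gcongr
      linarith [le_abs_self K]
    have h5 : Real.log V ≤ Real.log ((2 : ℝ) ^ (b - 1)) := by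
      rw [Real.log_pow, Nat.cast_sub (by omega)]
      push_cast
      nlinarith
    have := (Real.log_le_log_iff hV0' (by positivity)).1 h5
    exact_mod_cast this
  · intro n hn
    have h3 : (n : ℝ) * Real.log 2 ≤ Real.log b := by
      rw [← Real.log_pow]
      exact Real.log_le_log (by positivity) (by exact_mod_cast hn)
    have h4 : Real.log ((b : ℝ) ^ (3 * n)) < Real.log V := by
      rw [Real.log_pow]
      push_cast
      have h5 : (n : ℝ) ≤ 3 / 2 * Real.log b := by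
        have : (0 : ℝ) ≤ n := Nat.cast_nonneg n
        nlinarith
      have h6 : 6 * Real.log b ^ 2 ≤ κ * (k : ℝ) ^ 2 * Real.log b ^ 2 := by gcongr
      nlinarith
    have := (Real.log_lt_log_iff (by positivity) hV0').1 h4
    exact_mod_cast this

/-- The main case, with the witnesses `V, x₁, y₁, x₂, y₂`. -/
def Main (Sel : ℕ → ℕ → Prop) (k a n c b : ℕ) (w : Fin 5 → ℕ) : Prop :=
  Sel (b ^ k) (w 0) ∧ w 1 ^ 2 + w 2 ^ 2 = b ^ 2 * w 2 ^ 2 + 1 ∧
    w 3 ^ 2 + w 4 ^ 2 = (a * b) ^ 2 * w 4 ^ 2 + 1 ∧ w 2 % (b - 1) = n + 1 ∧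
    w 4 % (a * b - 1) = n + 1 ∧ w 2 < w 0 ∧ w 4 < w 0 ∧ 2 * c * w 2 < 2 * w 4 + w 2 ∧
    2 * w 4 < (2 * c + 1) * w 2

end PowC

open PowC Pell in
theorem powSpec (hV : VSpec) : PowSpec := by
  obtain ⟨Sel, X₀, κ, K, hκ, hSF, huniq, hex, hS⟩ := hV
  obtain ⟨b₀, k, hb₀⟩ := consts Sel X₀ κ K hκ hS
  let bb : ℕ → ℕ → ℕ → ℕ := fun a n c => b₀ + 8 * (n + 1) * (c + 1) + a
  have hb8 : ∀ a n c, n + 7 < bb a n c ∧ c < bb a n c := fun a n c => by
    constructor <;> simp only [bb] <;> nlinarith [Nat.zero_le (n * c), Nat.zero_le b₀, Nat.zero_le a]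
  have hb1 : ∀ a n c, 1 < bb a n c := fun a n c => by have := hb8 a n c; omega
  have hle : ∀ a n c, 2 ≤ a → bb a n c ≤ a * bb a n c := fun a n c ha =>
    Nat.le_mul_of_pos_left _ (by omega)
  have hab1 : ∀ a n c, 2 ≤ a → 1 < a * bb a n c := fun a n c ha =>
    (hb1 a n c).trans_le (hle a n c ha)
  have hpin : ∀ a n c (ha : 2 ≤ a) w, Main Sel k a n c (bb a n c) w →
      (w 1 = xn (hb1 a n c) (n + 1) ∧ w 2 = yn (hb1 a n c) (n + 1)) ∧
      (w 3 = xn (hab1 a n c ha) (n + 1) ∧ w 4 = yn (hab1 a n c ha) (n + 1)) := by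
    rintro a n c ha w ⟨h0, h1, h2, h3, h4, h5, h6, -, -⟩
    have hVle := ((hb₀ (bb a n c) (by simp only [bb]; omega)).2 _ h0).1
    exact ⟨pin _ le_rfl hVle h1 h3 h5, pin _ (hle a n c ha) hVle h2 h4 h6⟩
  have hmain : ∀ a n c, 2 ≤ a → ((∃ w, Main Sel k a n c (bb a n c) w) ↔ c = a ^ n) := by
    intro a n c ha
    have hr := ratio (c := c) (n := n) ha (by simp only [bb]; omega) (hb1 a n c) (hab1 a n c ha)
    constructor
    · rintro ⟨w, hw⟩
      obtain ⟨⟨-, e2⟩, ⟨-, e4⟩⟩ := hpin a n c ha w hw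
      obtain ⟨-, -, -, -, -, -, -, h7, h8⟩ := hw
      rw [e2, e4] at h7 h8
      exact hr.1 ⟨h7, h8⟩
    · intro hc
      obtain ⟨hX, hb⟩ := hb₀ (bb a n c) (by simp only [bb]; omega)
      obtain ⟨V, hV⟩ := hex _ hX
      have h8 := hb8 a n c
      have hl := hle a n c ha
      have h2n : 2 ^ n ≤ bb a n c := by
        have : 2 ^ n ≤ a ^ n := Nat.pow_le_pow_left ha n
        omega
      have hlt := (hb V hV).2 n h2n
      have hab : a ≤ bb a n c := by simp only [bb]; omega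
      have h3 : 2 * (a * bb a n c) ≤ bb a n c ^ 3 := by
        calc 2 * (a * bb a n c) ≤ bb a n c * (bb a n c * bb a n c) := by gcongr; omega
          _ = _ := by ring
      have h4 : (2 * (a * bb a n c)) ^ n < V :=
        lt_of_le_of_lt (by rw [pow_mul]; exact Nat.pow_le_pow_left h3 n) hlt
      refine ⟨![V, xn (hb1 a n c) (n + 1), yn (hb1 a n c) (n + 1), xn (hab1 a n c ha) (n + 1),
        yn (hab1 a n c ha) (n + 1)], hV, pell_add _ _, pell_add _ _, ?_, ?_, ?_, ?_, hr.2 hc⟩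
      · exact Eq.trans (yn_modEq_a_sub_one (hb1 a n c) (n + 1)) (Nat.mod_eq_of_lt (by omega))
      · exact Eq.trans (yn_modEq_a_sub_one (hab1 a n c ha) (n + 1)) (Nat.mod_eq_of_lt (by omega))
      · exact lt_of_le_of_lt ((yn_bounds _ n).2.trans (Nat.pow_le_pow_left (by omega) n)) h4
      · exact lt_of_le_of_lt (yn_bounds _ n).2 h4
  have hM : SF (fun v : Option (Fin 2) → ℕ => ∃ w : Fin 5 → ℕ, 2 ≤ v (some 0) ∧
      Main Sel k (v (some 0)) (v (some 1)) (v none) (bb (v (some 0)) (v (some 1)) (v none)) w) := by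
    refine SF.exT (p := fun w v => 2 ≤ v (some 0) ∧
      Main Sel k (v (some 0)) (v (some 1)) (v none) (bb (v (some 0)) (v (some 1)) (v none)) w) ?_ ?_
    · have pa := SFn.proj (ι := Fin 5 ⊕ Option (Fin 2)) (Sum.inr (some 0))
      have pn := SFn.proj (ι := Fin 5 ⊕ Option (Fin 2)) (Sum.inr (some 1))
      have pc := SFn.proj (ι := Fin 5 ⊕ Option (Fin 2)) (Sum.inr none)
      have pw := fun i => SFn.proj (ι := Fin 5 ⊕ Option (Fin 2)) (Sum.inl i)
      have c1 := SFn.const (ι := Fin 5 ⊕ Option (Fin 2)) 1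
      have c2 := SFn.const (ι := Fin 5 ⊕ Option (Fin 2)) 2
      have pb := ((SFn.const b₀).add (((SFn.const 8).mul (pn.add c1)).mul (pc.add c1))).add pa
      exact (SF.le c2 pa).and ((SF.rel2 hSF (pb.pow_const k) (pw 0)).and
        ((SF.eq (((pw 1).pow_const 2).add ((pw 2).pow_const 2))
          (((pb.pow_const 2).mul ((pw 2).pow_const 2)).add c1)).and
        ((SF.eq (((pw 3).pow_const 2).add ((pw 4).pow_const 2))
          ((((pa.mul pb).pow_const 2).mul ((pw 4).pow_const 2)).add c1)).and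
        ((SF.eq ((pw 2).mod (pb.sub c1)) (pn.add c1)).and
        ((SF.eq ((pw 4).mod ((pa.mul pb).sub c1)) (pn.add c1)).and
        ((SF.lt (pw 2) (pw 0)).and ((SF.lt (pw 4) (pw 0)).and
        ((SF.lt ((c2.mul pc).mul (pw 2)) ((c2.mul (pw 4)).add (pw 2))).and
        (SF.lt (c2.mul (pw 4)) (((c2.mul pc).add c1).mul (pw 2)))))))))))
    · rintro v x y ⟨ha, hx⟩ ⟨-, hy⟩
      obtain ⟨⟨e1, e2⟩, ⟨e3, e4⟩⟩ := hpin _ _ _ ha x hx
      obtain ⟨⟨f1, f2⟩, ⟨f3, f4⟩⟩ := hpin _ _ _ ha y hy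
      funext i
      fin_cases i
      exacts [huniq _ _ _ hx.1 hy.1, e1.trans f1.symm, e2.trans f2.symm, e3.trans f3.symm,
        e4.trans f4.symm]
  have pa := SFn.proj (ι := Option (Fin 2)) (some 0)
  have pn := SFn.proj (ι := Option (Fin 2)) (some 1)
  have pc := SFn.proj (ι := Option (Fin 2)) none
  have h1 := ((SF.eq pa (SFn.const 0)).and (((SF.eq pn (SFn.const 0)).and
    (SF.eq pc (SFn.const 1))).or ((SF.lt (SFn.const 0) pn).and (SF.eq pc (SFn.const 0)))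
    (fun v h h' => by omega))).or ((SF.eq pa (SFn.const 1)).and (SF.eq pc (SFn.const 1)))
    (fun v h h' => by omega)
  refine (h1.or hM (fun v h ⟨_, h', _⟩ => by omega)).congr fun v => ?_
  show _ ↔ v none = v (some 0) ^ v (some 1)
  rw [exists_and_left]
  rcases Nat.lt_or_ge (v (some 0)) 2 with ha | ha
  · have : v (some 0) = 0 ∨ v (some 0) = 1 := by omega
    rcases this with h | h
    · rcases Nat.eq_zero_or_pos (v (some 1)) with h' | h'
      · simp [h, h']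
      · simp [h, h', h'.ne']
    · simp [h]
  · rw [hmain _ _ _ ha]
    constructor
    · rintro ((⟨h, -⟩ | ⟨h, -⟩) | ⟨-, h⟩)
      · omega
      · omega
      · exact h
    · exact fun h => Or.inr ⟨ha, h⟩

end Crest.Agent.R323
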