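import Crest.Agent.R323.SelectQ

/-!
Row 323, part B2: the single-fold selector of quasi-polynomial size.
-/

namespace Crest.Agent.R323

namespace Select

/-- Product of the heights over a coset of `T`. -/
noncomputable def Ht (T : Finset W.Point) (R : W.Point) : ℕ := ∏ t ∈ T, HP (R + t)

theorem Ht_pos (T : Finset W.Point) (R : W.Point) : 0 < Ht T R :=
  Finset.prod_pos fun _ _ => HP_pos _

theorem add_mem {T : Finset W.Point} (h0 : (0 : W.Point) ∈ T) (hsub : ∀ s ∈ T, ∀ t ∈ T, s - t ∈ T)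
    {s t : W.Point} (hs : s ∈ T) (ht : t ∈ T) : s + t ∈ T := by
  have := hsub s hs _ (hsub 0 h0 t ht)
  simpa using this

theorem Ht_add {T : Finset W.Point} (h0 : (0 : W.Point) ∈ T) (hsub : ∀ s ∈ T, ∀ t ∈ T, s - t ∈ T)
    (R : W.Point) {s : W.Point} (hs : s ∈ T) : Ht T (R + s) = Ht T R := by
  unfold Ht
  refine Finset.prod_nbij' (fun t => s + t) (fun t => t - s) (fun t ht => add_mem h0 hsub hs ht)
    (fun t ht => hsub t ht s hs) (fun t _ => by simp) (fun t _ => by simp) (fun t _ => ?_)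
  rw [add_assoc]

theorem log_Ht {T : Finset W.Point} {R : W.Point} {a C : ℝ}
    (h : ∀ t ∈ T, |Real.log (HP (R + t)) - a| ≤ C) :
    |Real.log (Ht T R) - T.card * a| ≤ T.card * C := by
  have h1 : Real.log (Ht T R) = ∑ t ∈ T, Real.log (HP (R + t)) := by
    unfold Ht
    push_cast
    exact Real.log_prod (fun t _ => by exact_mod_cast (HP_pos _).ne')
  have h2 : Real.log (Ht T R) - T.card * a = ∑ t ∈ T, (Real.log (HP (R + t)) - a) := by
    rw [h1, Finset.sum_sub_distrib]; simp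
  rw [h2]
  refine (Finset.abs_sum_le_sum_abs _ _).trans ?_
  refine (Finset.sum_le_sum h).trans (le_of_eq ?_)
  simp

theorem sfn_Ht {ι : Type} (T : Finset W.Point) {A : (ι → ℕ) → W.Point} (hA : SFp A) :
    SFn (fun a => Ht T (A a)) :=
  SFn.prod T fun t _ => (hA.add (SFp.const t)).hp

/-- `R` is the lexicographically least point of its coset. -/
def Canon (T : Finset W.Point) (R : W.Point) : Prop :=
  ∀ t ∈ T, px R < px (R + t) ∨ (px R = px (R + t) ∧ py R ≤ py (R + t))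

theorem sf_Canon {ι : Type} (T : Finset W.Point) {A : (ι → ℕ) → W.Point} (hA : SFp A) :
    SF (fun a => Canon T (A a)) :=
  SF.forall_finset T fun t _ =>
    ((hA.1.lt (hA.add (SFp.const t)).1).or
      ((hA.1.eq (hA.add (SFp.const t)).1).and (hA.2.le (hA.add (SFp.const t)).2))).1

theorem canon_unique {T : Finset W.Point} (hsub : ∀ s ∈ T, ∀ t ∈ T, s - t ∈ T) {R s t : W.Point}
    (hs : s ∈ T) (ht : t ∈ T) (h : Canon T (R + s)) (h' : Canon T (R + t)) : R + s = R + t := by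
  have h1 := h _ (hsub t ht s hs)
  have h2 := h' _ (hsub s hs t ht)
  rw [show R + s + (t - s) = R + t by abel] at h1
  rw [show R + t + (s - t) = R + s by abel] at h2
  rcases h1 with h1 | ⟨h1, h3⟩ <;> rcases h2 with h2 | ⟨h2, h4⟩
  · linarith
  · linarith
  · linarith
  · exact pxy_inj h1 (le_antisymm h3 h4)

theorem canon_exists {T : Finset W.Point} (h0 : (0 : W.Point) ∈ T)
    (hsub : ∀ s ∈ T, ∀ t ∈ T, s - t ∈ T) (R : W.Point) : ∃ s ∈ T, Canon T (R + s) := by
  obtain ⟨s, hs, hmin⟩ := T.exists_min_image (fun t => toLex (px (R + t), py (R + t))) ⟨0, h0⟩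
  refine ⟨s, hs, fun t ht => ?_⟩
  have := hmin _ (add_mem h0 hsub hs ht)
  rw [Prod.Lex.toLex_le_toLex, ← add_assoc] at this
  exact this

/-- The selection predicate. -/
def Good (T : Finset W.Point) (P : W.Point) (m : ℤ) (R : W.Point) (X V : ℕ) : Prop :=
  Canon T R ∧ Ht T (R + m • P) ≤ X * Ht T R ∧ X * Ht T (R + P) < Ht T (R + (m + 1) • P) ∧ V = HP R

/-- Height increments. -/
noncomputable def D (T : Finset W.Point) (P : W.Point) (m n : ℤ) : ℝ :=
  Real.log (Ht T ((n + m) • P)) - Real.log (Ht T (n • P))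

theorem le_iff_D (T : Finset W.Point) (P : W.Point) (m n : ℤ) {X : ℕ} (hX : 0 < X) :
    Ht T ((n + m) • P) ≤ X * Ht T (n • P) ↔ D T P m n ≤ Real.log X := by
  have h1 : (0 : ℝ) < Ht T ((n + m) • P) := by exact_mod_cast Ht_pos _ _
  have h2 : (0 : ℝ) < Ht T (n • P) := by exact_mod_cast Ht_pos _ _
  have h3 : (0 : ℝ) < X := by exact_mod_cast hX
  unfold D
  rw [sub_le_iff_le_add, ← Real.log_mul h3.ne' h2.ne', Real.log_le_log_iff h1 (mul_pos h3 h2)]
  exact_mod_cast Iff.rfl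

theorem good_iff {T : Finset W.Point} (h0 : (0 : W.Point) ∈ T)
    (hsub : ∀ s ∈ T, ∀ t ∈ T, s - t ∈ T) (P : W.Point) (m n : ℤ) {t : W.Point} (ht : t ∈ T)
    (X V : ℕ) : Good T P m (n • P + t) X V ↔ Canon T (n • P + t) ∧ 0 < X ∧
      D T P m n ≤ Real.log X ∧ Real.log X < D T P m (n + 1) ∧ V = HP (n • P + t) := by
  unfold Good
  rw [show n • P + t + m • P = (n + m) • P + t by rw [add_zsmul]; abel,
    show n • P + t + P = (n + 1) • P + t by rw [add_zsmul, one_zsmul]; abel,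
    show n • P + t + (m + 1) • P = (n + 1 + m) • P + t by simp only [add_zsmul, one_zsmul]; abel]
  simp only [Ht_add h0 hsub _ ht]
  rcases Nat.eq_zero_or_pos X with rfl | hX
  · have := Ht_pos T ((n + m) • P)
    constructor
    · rintro ⟨-, h, -⟩; omega
    · rintro ⟨-, h, -⟩; omega
  · rw [le_iff_D T P m n hX, ← not_le, le_iff_D T P m (n + 1) hX, not_le]
    simp [hX]

/-- The final estimate. -/
theorem estimate {η A B C : ℝ} (hη : 0 < η) (hA : 0 < A) :
    ∃ l₀ κ K : ℝ, 0 < κ ∧ ∀ l n v : ℝ, l₀ ≤ l → |A * n - l| ≤ B → |v - η * n ^ 2| ≤ C →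
      κ * l ^ 2 ≤ v ∧ v ≤ K * l ^ 2 := by
  refine ⟨max (2 * B) (max 1 (8 * A ^ 2 * |C| / η)), η / (8 * A ^ 2), 4 * η / A ^ 2 + |C|,
    by positivity, fun l n v hl h1 h2 => ?_⟩
  have hB : 2 * B ≤ l := (le_max_left _ _).trans hl
  have hl1 : 1 ≤ l := ((le_max_left _ _).trans (le_max_right _ _)).trans hl
  have hl2 : 8 * A ^ 2 * |C| / η ≤ l := ((le_max_right _ _).trans (le_max_right _ _)).trans hl
  rw [abs_le] at h1 h2
  have hC := le_abs_self C
  have hC0 := abs_nonneg C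
  have h3 : l / 2 ≤ A * n := by linarith
  have h4 : A * n ≤ 2 * l := by linarith
  have h5 : l ^ 2 / 4 ≤ (A * n) ^ 2 := by nlinarith
  have h6 : (A * n) ^ 2 ≤ 4 * l ^ 2 := by nlinarith
  have hA2 : 0 < A ^ 2 := by positivity
  have h7 : l ^ 2 / (4 * A ^ 2) ≤ n ^ 2 := by
    rw [div_le_iff₀ (by positivity)]; nlinarith
  have h8 : n ^ 2 ≤ 4 * l ^ 2 / A ^ 2 := by
    rw [le_div_iff₀ hA2]; nlinarith
  have h9 : l ≤ l ^ 2 := by nlinarith
  have h10 : |C| ≤ η / (8 * A ^ 2) * l ^ 2 := by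
    rw [div_le_iff₀ hη] at hl2
    rw [div_mul_eq_mul_div, le_div_iff₀ (by positivity)]
    nlinarith
  constructor
  · have : η * (l ^ 2 / (4 * A ^ 2)) ≤ η * n ^ 2 := mul_le_mul_of_nonneg_left h7 hη.le
    have e : η * (l ^ 2 / (4 * A ^ 2)) = 2 * (η / (8 * A ^ 2) * l ^ 2) := by field_simp; ring
    linarith
  · have : η * n ^ 2 ≤ η * (4 * l ^ 2 / A ^ 2) := mul_le_mul_of_nonneg_left h8 hη.le
    have e : (4 * η / A ^ 2 + |C|) * l ^ 2 = η * (4 * l ^ 2 / A ^ 2) + |C| * l ^ 2 := by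
      field_simp
    have : |C| ≤ |C| * l ^ 2 := by nlinarith
    linarith

end Select

open Select in
theorem vspec (hS : StructSpec) : VSpec := by
  obtain ⟨P, T, η, C, hη, h0, hsub, -, hgen, hh⟩ := hS
  have hτ : (0 : ℝ) < T.card := by exact_mod_cast Finset.card_pos.2 ⟨0, h0⟩
  obtain ⟨m₀, hm₀⟩ := exists_nat_gt (max 0 (2 * C / η))
  set m : ℤ := (m₀ : ℤ) with hm
  have hm1 : (0 : ℝ) < m := by
    have := (le_max_left _ _).trans_lt hm₀
    rw [hm]
    exact_mod_cast this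
  have hm2 : 2 * C < (m : ℝ) * η := by
    have := (le_max_right _ _).trans_lt hm₀
    rw [div_lt_iff₀ hη] at this
    exact_mod_cast this
  set A : ℝ := 2 * T.card * η * m with hA
  have hA0 : 0 < A := by positivity
  set E : ℝ := T.card * η * (m : ℝ) ^ 2 with hE
  have hD : ∀ n : ℤ, |D T P m n - (A * n + E)| ≤ 2 * T.card * C := by
    intro n
    have h1 := log_Ht (hh (n + m))
    have h2 := log_Ht (hh n)
    rw [abs_le] at h1 h2 ⊢
    unfold D
    push_cast at h1
    constructor <;> nlinarith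
  have hmono : StrictMono (D T P m) := by
    refine strictMono_int_of_lt_succ fun n => ?_
    have h1 := hD n
    have h2 := hD (n + 1)
    rw [abs_le] at h1 h2
    push_cast at h2
    have : 4 * T.card * C < A := by rw [hA]; nlinarith
    nlinarith
  have huniq : ∀ R R' X V V', Good T P m R X V → Good T P m R' X V' → R = R' := by
    intro R R' X V V' h h'
    obtain ⟨n, t, ht, rfl⟩ := hgen R
    obtain ⟨n', t', ht', rfl⟩ := hgen R'
    rw [good_iff h0 hsub P m _ ht] at h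
    rw [good_iff h0 hsub P m _ ht'] at h'
    have h1 := hmono.lt_iff_lt.1 (h.2.2.1.trans_lt h'.2.2.2.1)
    have h2 := hmono.lt_iff_lt.1 (h'.2.2.1.trans_lt h.2.2.2.1)
    obtain rfl : n = n' := by omega
    exact canon_unique hsub ht ht' h.1 h'.1
  obtain ⟨l₀, κ, K, hκ, hest⟩ := estimate (B := A + E + 2 * T.card * |C|) (C := C) hη hA0
  refine ⟨fun X V => ∃ R, Good T P m R X V, ⌈Real.exp l₀⌉₊ + 1, κ, K, hκ, ?_, ?_, ?_, ?_⟩
  · refine SF.exP (q := fun R a => Good T P m R (a 0) (a 1)) (fun A hA => ?_)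
      (fun a R R' h h' => huniq _ _ _ _ _ h h')
    exact (sf_Canon T hA).and
      ((SF.le (sfn_Ht T (hA.add (SFp.const _))) ((SFn.proj _).mul (sfn_Ht T hA))).and
        ((SF.lt ((SFn.proj _).mul (sfn_Ht T (hA.add (SFp.const _))))
          (sfn_Ht T (hA.add (SFp.const _)))).and (SF.eq (SFn.proj _) hA.hp)))
  · rintro X V V' ⟨R, h⟩ ⟨R', h'⟩
    rw [h.2.2.2, h'.2.2.2, huniq _ _ _ _ _ h h']
  · intro X hX
    obtain ⟨n, hn, hmax⟩ := Int.exists_greatest_of_bdd (P := fun n => D T P m n ≤ Real.log X)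
      (by
        refine ⟨⌈(Real.log X + 2 * T.card * C - E) / A⌉, fun z hz => ?_⟩
        have h1 := hD z
        rw [abs_le] at h1
        have h2 : (z : ℝ) ≤ (Real.log X + 2 * T.card * C - E) / A := by
          rw [le_div_iff₀ hA0]; linarith
        exact_mod_cast h2.trans (Int.le_ceil _))
      (by
        refine ⟨⌊(Real.log X - 2 * T.card * C - E) / A⌋, ?_⟩
        have h1 := hD ⌊(Real.log X - 2 * T.card * C - E) / A⌋
        rw [abs_le] at h1
        have h2 := Int.floor_le ((Real.log X - 2 * T.card * C - E) / A)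
        rw [le_div_iff₀ hA0] at h2
        linarith)
    obtain ⟨s, hs, hc⟩ := canon_exists h0 hsub (n • P)
    refine ⟨_, n • P + s, (good_iff h0 hsub P m n hs X _).2 ⟨hc, by omega, hn, ?_, rfl⟩⟩
    by_contra hlt
    have := hmax (n + 1) (not_lt.1 hlt)
    omega
  · rintro X V hX ⟨R, h⟩
    obtain ⟨n, t, ht, rfl⟩ := hgen R
    rw [good_iff h0 hsub P m _ ht] at h
    obtain ⟨-, hX0, h1, h2, rfl⟩ := h
    refine ⟨HP_pos _, hest _ n _ ?_ ?_ (hh n t ht)⟩
    · rw [Real.le_log_iff_exp_le (by exact_mod_cast hX0)]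
      have h3 : ((⌈Real.exp l₀⌉₊ + 1 : ℕ) : ℝ) ≤ X := by exact_mod_cast hX
      have h4 := Nat.le_ceil (Real.exp l₀)
      push_cast at h3
      linarith
    · have h3 := hD n
      have h4 := hD (n + 1)
      have h5 : T.card * C ≤ T.card * |C| := mul_le_mul_of_nonneg_left (le_abs_self C) hτ.le
      have h6 : 0 ≤ E := by positivity
      rw [abs_le] at h3 h4 ⊢
      push_cast at h4
      constructor <;> nlinarith

end Crest.Agent.R323
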