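import Crest.Agent.R323.Api

/-!
Row 323, part B2 (first file): single-fold rational-valued and point-valued functions.
-/

namespace Crest.Agent.R323

variable {ι : Type}

/-- Predicates that are single-fold together with their negation. -/
def SFd (p : (ι → ℕ) → Prop) : Prop := SF p ∧ SF (fun a => ¬ p a)

theorem SFd.congr {p q : (ι → ℕ) → Prop} (hp : SFd p) (h : ∀ a, p a ↔ q a) : SFd q := by
  have : p = q := funext fun a => propext (h a)
  rwa [← this]

theorem SFd.not {p : (ι → ℕ) → Prop} (hp : SFd p) : SFd (fun a => ¬ p a) :=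
  ⟨hp.2, hp.1.congr (fun a => by simp)⟩

theorem SFd.and {p q : (ι → ℕ) → Prop} (hp : SFd p) (hq : SFd q) : SFd (fun a => p a ∧ q a) :=
  ⟨hp.1.and hq.1, (hp.2.or (hp.1.and hq.2) (fun _ h1 h2 => h1 h2.1)).congr (fun a => by tauto)⟩

theorem SFd.or {p q : (ι → ℕ) → Prop} (hp : SFd p) (hq : SFd q) : SFd (fun a => p a ∨ q a) :=
  (hp.not.and hq.not).not.congr (fun a => by tauto)

theorem SFd.lt {f g : (ι → ℕ) → ℕ} (hf : SFn f) (hg : SFn g) : SFd (fun a => f a < g a) :=
  ⟨SF.lt hf hg, (SF.le hg hf).congr (fun a => by omega)⟩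

theorem SFd.eq {f g : (ι → ℕ) → ℕ} (hf : SFn f) (hg : SFn g) : SFd (fun a => f a = g a) :=
  ⟨SF.eq hf hg, SF.ne hf hg⟩

theorem SFn.gcd {f g : (ι → ℕ) → ℕ} (hf : SFn f) (hg : SFn g) :
    SFn (fun a => Nat.gcd (f a) (g a)) := by
  refine SFn.op2 (o := fun x y => Nat.gcd x y) ?_ hf hg
  refine SFn.of_graph (r := fun x a => (a 0 + a 1 = 0 ∧ x = 0) ∨
    (0 < x ∧ a 0 % x = 0 ∧ a 1 % x = 0 ∧ Nat.Coprime (a 0 / x) (a 1 / x))) ?_ (fun x a => ?_)
  · exact ((SF.eq ((SFn.proj _).add (SFn.proj _)) (SFn.const 0)).and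
      (SF.eq (SFn.proj _) (SFn.const 0))).or
      ((SF.lt (SFn.const 0) (SFn.proj _)).and
        ((SF.eq ((SFn.proj _).mod (SFn.proj _)) (SFn.const 0)).and
          ((SF.eq ((SFn.proj _).mod (SFn.proj _)) (SFn.const 0)).and
            (SF.coprime ((SFn.proj _).div (SFn.proj _)) ((SFn.proj _).div (SFn.proj _))))))
      (fun a h1 h2 => by dsimp only at h1 h2; omega)
  · constructor
    · rintro (⟨h1, rfl⟩ | ⟨h0, h1, h2, h3⟩)
      · have h2 : a 0 = 0 := by omega
        have h3 : a 1 = 0 := by omega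
        simp [h2, h3]
      · obtain ⟨u, hu⟩ := Nat.dvd_of_mod_eq_zero h1
        obtain ⟨v, hv⟩ := Nat.dvd_of_mod_eq_zero h2
        rw [hu, hv, Nat.mul_div_cancel_left _ h0, Nat.mul_div_cancel_left _ h0] at h3
        rw [hu, hv, Nat.gcd_mul_left, h3, mul_one]
    · rintro rfl
      by_cases h : a 0 + a 1 = 0
      · left
        have h2 : a 0 = 0 := by omega
        have h3 : a 1 = 0 := by omega
        simp [h2, h3]
      · right
        have h0 : 0 < Nat.gcd (a 0) (a 1) := by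
          rcases Nat.eq_zero_or_pos (a 0) with h1 | h1
          · exact Nat.gcd_pos_of_pos_right _ (by omega)
          · exact Nat.gcd_pos_of_pos_left _ h1
        exact ⟨h0, Nat.mod_eq_zero_of_dvd (Nat.gcd_dvd_left _ _),
          Nat.mod_eq_zero_of_dvd (Nat.gcd_dvd_right _ _), Nat.coprime_div_gcd_div_gcd h0⟩

/-- Rational-valued single-fold functions. -/
def SFq (F : (ι → ℕ) → ℚ) : Prop :=
  ∃ p n d : (ι → ℕ) → ℕ, SFn p ∧ SFn n ∧ SFn d ∧
    ∀ a, 0 < d a ∧ F a = ((p a : ℚ) - (n a : ℚ)) / (d a : ℚ)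

variable {F G : (ι → ℕ) → ℚ}

theorem SFq.congr (hF : SFq F) (h : ∀ a, F a = G a) : SFq G := by
  have : F = G := funext h
  rwa [← this]

theorem SFq.nat {f : (ι → ℕ) → ℕ} (hf : SFn f) : SFq (fun a => (f a : ℚ)) :=
  ⟨f, fun _ => 0, fun _ => 1, hf, SFn.const 0, SFn.const 1, fun a => by simp⟩

theorem rat_eq_code (q : ℚ) :
    ((q.num.toNat : ℚ) - ((-q.num).toNat : ℚ)) / (q.den : ℚ) = q := by
  have h : ((q.num.toNat : ℤ) - ((-q.num).toNat : ℤ)) = q.num := Int.toNat_sub_toNat_neg _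
  have h' : ((q.num.toNat : ℚ) - ((-q.num).toNat : ℚ)) = (q.num : ℚ) := by exact_mod_cast h
  rw [h', Rat.num_div_den]

theorem SFq.const (q : ℚ) : SFq (fun _ : ι → ℕ => q) :=
  ⟨fun _ => q.num.toNat, fun _ => (-q.num).toNat, fun _ => q.den, SFn.const _, SFn.const _,
    SFn.const _, fun _ => ⟨q.den_pos, (rat_eq_code q).symm⟩⟩

theorem SFq.neg (hF : SFq F) : SFq (fun a => - F a) := by
  obtain ⟨p, n, d, hp, hn, hd, h⟩ := hF
  refine ⟨n, p, d, hn, hp, hd, fun a => ⟨(h a).1, ?_⟩⟩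
  beta_reduce
  rw [(h a).2]; ring

theorem SFq.add (hF : SFq F) (hG : SFq G) : SFq (fun a => F a + G a) := by
  obtain ⟨p, n, d, hp, hn, hd, h⟩ := hF
  obtain ⟨p', n', d', hp', hn', hd', h'⟩ := hG
  refine ⟨_, _, _, (hp.mul hd').add (hp'.mul hd), (hn.mul hd').add (hn'.mul hd), hd.mul hd',
    fun a => ⟨Nat.mul_pos (h a).1 (h' a).1, ?_⟩⟩
  have h1 : (d a : ℚ) ≠ 0 := by exact_mod_cast (h a).1.ne'
  have h2 : (d' a : ℚ) ≠ 0 := by exact_mod_cast (h' a).1.ne'
  beta_reduce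
  rw [(h a).2, (h' a).2]
  push_cast
  field_simp
  ring

theorem SFq.mul (hF : SFq F) (hG : SFq G) : SFq (fun a => F a * G a) := by
  obtain ⟨p, n, d, hp, hn, hd, h⟩ := hF
  obtain ⟨p', n', d', hp', hn', hd', h'⟩ := hG
  refine ⟨_, _, _, (hp.mul hp').add (hn.mul hn'), (hp.mul hn').add (hn.mul hp'), hd.mul hd',
    fun a => ⟨Nat.mul_pos (h a).1 (h' a).1, ?_⟩⟩
  have h1 : (d a : ℚ) ≠ 0 := by exact_mod_cast (h a).1.ne'
  have h2 : (d' a : ℚ) ≠ 0 := by exact_mod_cast (h' a).1.ne'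
  beta_reduce
  rw [(h a).2, (h' a).2]
  push_cast
  field_simp
  ring

theorem SFq.sub (hF : SFq F) (hG : SFq G) : SFq (fun a => F a - G a) :=
  (hF.add hG.neg).congr (fun _ => (sub_eq_add_neg _ _).symm)

theorem SFq.inv (hF : SFq F) : SFq (fun a => (F a)⁻¹) := by
  obtain ⟨p, n, d, hp, hn, hd, h⟩ := hF
  refine ⟨_, _, _, hd.mul hp, hd.mul hn,
    (SFn.const 1).max ((((hp.sub hn).add (hn.sub hp))).pow_const 2), fun a => ⟨by omega, ?_⟩⟩
  have h1 : (d a : ℚ) ≠ 0 := by exact_mod_cast (h a).1.ne'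
  beta_reduce
  rw [(h a).2]
  by_cases hpn : p a = n a
  · simp [hpn]
  · have h2 : 1 ≤ (p a - n a + (n a - p a)) ^ 2 := Nat.one_le_pow _ _ (by omega)
    rw [max_eq_right h2]
    have h3 : (((p a - n a + (n a - p a)) ^ 2 : ℕ) : ℚ) = ((p a : ℚ) - (n a : ℚ)) ^ 2 := by
      rcases le_total (p a) (n a) with h4 | h4
      · rw [Nat.sub_eq_zero_of_le h4, zero_add]
        push_cast [Nat.cast_sub h4]
        ring
      · rw [Nat.sub_eq_zero_of_le h4, add_zero]
        push_cast [Nat.cast_sub h4]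
        ring
    have h4 : (p a : ℚ) - (n a : ℚ) ≠ 0 := by
      rw [sub_ne_zero]; exact_mod_cast hpn
    rw [h3]
    push_cast
    field_simp

theorem SFq.div (hF : SFq F) (hG : SFq G) : SFq (fun a => F a / G a) :=
  (hF.mul hG.inv).congr (fun _ => (div_eq_mul_inv _ _).symm)

theorem SFq.pow_const (hF : SFq F) (k : ℕ) : SFq (fun a => F a ^ k) := by
  induction k with
  | zero => exact (SFq.const 1).congr (by simp)
  | succ k ih => exact (ih.mul hF).congr (fun a => (pow_succ _ _).symm)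

theorem SFq.ite {c : (ι → ℕ) → Prop} [DecidablePred c] (hc : SFd c) (hF : SFq F) (hG : SFq G) :
    SFq (fun a => if c a then F a else G a) := by
  obtain ⟨p, n, d, hp, hn, hd, h⟩ := hF
  obtain ⟨p', n', d', hp', hn', hd', h'⟩ := hG
  refine ⟨_, _, _, SFn.ite hc.1 hc.2 hp hp', SFn.ite hc.1 hc.2 hn hn', SFn.ite hc.1 hc.2 hd hd',
    fun a => ?_⟩
  by_cases hca : c a
  · simpa [hca] using h a
  · simpa [hca] using h' a

theorem SFq.pos (hF : SFq F) : SFd (fun a => 0 < F a) := by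
  obtain ⟨p, n, d, hp, hn, hd, h⟩ := hF
  refine (SFd.lt hn hp).congr (fun a => ?_)
  have h1 : (0 : ℚ) < (d a : ℚ) := by exact_mod_cast (h a).1
  rw [(h a).2, div_pos_iff_of_pos_right h1, sub_pos, Nat.cast_lt]

theorem SFq.lt (hF : SFq F) (hG : SFq G) : SFd (fun a => F a < G a) :=
  (hG.sub hF).pos.congr (fun _ => sub_pos)

theorem SFq.le (hF : SFq F) (hG : SFq G) : SFd (fun a => F a ≤ G a) :=
  (hG.lt hF).not.congr (fun _ => not_lt)

theorem SFq.eq (hF : SFq F) (hG : SFq G) : SFd (fun a => F a = G a) :=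
  ((hF.le hG).and (hG.le hF)).congr (fun _ => le_antisymm_iff.symm)

theorem SFq.den (hF : SFq F) : SFn (fun a => (F a).den) := by
  obtain ⟨p, n, d, hp, hn, hd, h⟩ := hF
  refine (hd.div (hd.gcd ((hp.sub hn).add (hn.sub hp)))).congr (fun a => ?_)
  have h1 : F a = mkRat ((p a : ℤ) - (n a : ℤ)) (d a) := by
    rw [(h a).2, Rat.mkRat_eq_div]; push_cast; rfl
  rw [h1, Rat.den_mkRat, if_neg (h a).1.ne']
  congr 2
  omega

/-- A natural-valued rational function is a single-fold function. -/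
theorem SFq.toNat {f : (ι → ℕ) → ℕ} (hF : SFq (fun a => (f a : ℚ))) : SFn f := by
  obtain ⟨p, n, d, hp, hn, hd, h⟩ := hF
  refine ((hp.sub hn).div hd).congr (fun a => ?_)
  have h1 : (d a : ℚ) ≠ 0 := by exact_mod_cast (h a).1.ne'
  have h2 : (f a : ℚ) * d a + n a = p a := by
    have := (h a).2
    dsimp only at this
    rw [this]; field_simp; ring
  have h3 : f a * d a + n a = p a := by exact_mod_cast h2
  rw [← h3, Nat.add_sub_cancel, Nat.mul_div_cancel _ (h a).1]

theorem SFq.num (hF : SFq F) : SFq (fun a => ((F a).num : ℚ)) :=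
  (hF.mul (SFq.nat hF.den)).congr (fun _ => Rat.mul_den_eq_num _)

theorem SFq.intToNat {z : (ι → ℕ) → ℤ} (hz : SFq (fun a => (z a : ℚ))) :
    SFn (fun a => (z a).toNat) := by
  classical
  refine SFq.toNat ((SFq.ite hz.pos hz (SFq.const 0)).congr (fun a => ?_))
  by_cases h : (0 : ℚ) < (z a : ℚ)
  · rw [if_pos h]
    have h1 : 0 < z a := by exact_mod_cast h
    have h2 : (((z a).toNat : ℕ) : ℤ) = z a := Int.toNat_of_nonneg h1.le
    exact_mod_cast h2.symm
  · rw [if_neg h]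
    have h1 : z a ≤ 0 := by exact_mod_cast not_lt.1 h
    rw [Int.toNat_eq_zero.2 h1]; simp

theorem SFq.numPos (hF : SFq F) : SFn (fun a => (F a).num.toNat) := SFq.intToNat hF.num

theorem SFq.numNeg (hF : SFq F) : SFn (fun a => (-(F a).num).toNat) :=
  SFq.intToNat (hF.num.neg.congr (fun a => by push_cast; rfl))

theorem SFq.hq (hF : SFq F) : SFn (fun a => HQ (F a)) :=
  ((hF.numPos.add hF.numNeg).max hF.den).congr (fun a => by unfold HQ; congr 1; omega)

/-! ### Points -/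

open WeierstrassCurve.Affine

/-- `x`-coordinate (`0` at infinity). -/
def px : W.Point → ℚ
  | .zero => 0
  | .some x _ _ => x

/-- `y`-coordinate (`0` at infinity). -/
def py : W.Point → ℚ
  | .zero => 0
  | .some _ y _ => y

theorem not_ns_zero : ¬ W.Nonsingular 0 0 := by
  rw [nonsingular_iff, equation_iff]
  simp [W]

theorem ns_iff (R : W.Point) : W.Nonsingular (px R) (py R) ↔ R ≠ 0 := by
  rcases R with _ | ⟨x, y, h⟩
  · exact ⟨fun h => absurd h not_ns_zero, fun h => absurd rfl h⟩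
  · exact ⟨fun _ => Point.some_ne_zero h, fun _ => h⟩

theorem pxy_inj {R S : W.Point} (hx : px R = px S) (hy : py R = py S) : R = S := by
  rcases R with _ | ⟨x, y, h⟩ <;> rcases S with _ | ⟨x', y', h'⟩
  · rfl
  · obtain rfl : 0 = x' := hx
    obtain rfl : 0 = y' := hy
    exact absurd h' not_ns_zero
  · obtain rfl : x = 0 := hx
    obtain rfl : y = 0 := hy
    exact absurd h not_ns_zero
  · obtain rfl : x = x' := hx
    obtain rfl : y = y' := hy
    rfl

theorem HP_eq (R : W.Point) : HP R = HQ (px R) := by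
  rcases R with _ | ⟨x, y, h⟩
  · simp [HP, HQ, px]
  · rfl

theorem HP_pos (R : W.Point) : 0 < HP R := by
  rw [HP_eq]
  exact lt_of_lt_of_le (px R).den_pos (le_max_right _ _)

theorem SFq.ns (hF : SFq F) (hG : SFq G) : SFd (fun a => W.Nonsingular (F a) (G a)) := by
  simp only [nonsingular_iff, equation_iff]
  refine SFd.and (SFq.eq ?_ ?_) (SFd.or (SFq.eq ?_ ?_).not (SFq.eq hG ?_).not)
  · exact ((hG.pow_const 2).add (((SFq.const _).mul hF).mul hG)).add ((SFq.const _).mul hG)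
  · exact (((hF.pow_const 3).add ((SFq.const _).mul (hF.pow_const 2))).add
      ((SFq.const _).mul hF)).add (SFq.const _)
  · exact (SFq.const _).mul hG
  · exact (((SFq.const _).mul (hF.pow_const 2)).add ((SFq.const _).mul hF)).add (SFq.const _)
  · exact (hG.neg.sub ((SFq.const _).mul hF)).sub (SFq.const _)

/-- Point-valued single-fold functions. -/
def SFp (A : (ι → ℕ) → W.Point) : Prop := SFq (fun a => px (A a)) ∧ SFq (fun a => py (A a))

variable {A B : (ι → ℕ) → W.Point}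

theorem SFp.const (R : W.Point) : SFp (fun _ : ι → ℕ => R) := ⟨SFq.const _, SFq.const _⟩

theorem SFp.zero (hA : SFp A) : SFd (fun a => A a = 0) :=
  (hA.1.ns hA.2).not.congr (fun a => by rw [ns_iff, not_not])

theorem SFp.hp (hA : SFp A) : SFn (fun a => HP (A a)) :=
  hA.1.hq.congr (fun a => (HP_eq _).symm)

theorem SFq.negY (hF : SFq F) (hG : SFq G) : SFq (fun a => W.negY (F a) (G a)) :=
  (hG.neg.sub ((SFq.const _).mul hF)).sub (SFq.const _)

theorem SFq.addX {L : (ι → ℕ) → ℚ} (hF : SFq F) (hG : SFq G) (hL : SFq L) :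
    SFq (fun a => W.addX (F a) (G a) (L a)) :=
  ((((hL.pow_const 2).add ((SFq.const _).mul hL)).sub (SFq.const _)).sub hF).sub hG

theorem SFq.addY {Y L : (ι → ℕ) → ℚ} (hF : SFq F) (hG : SFq G) (hY : SFq Y) (hL : SFq L) :
    SFq (fun a => W.addY (F a) (G a) (Y a) (L a)) :=
  (hF.addX hG hL).negY ((hL.mul ((hF.addX hG hL).sub hF)).add hY)

theorem SFq.slope {Y Y' : (ι → ℕ) → ℚ} (hF : SFq F) (hG : SFq G) (hY : SFq Y) (hY' : SFq Y') :
    SFq (fun a => W.slope (F a) (G a) (Y a) (Y' a)) := by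
  unfold WeierstrassCurve.Affine.slope
  refine SFq.ite (hF.eq hG) (SFq.ite (hY.eq (hG.negY hY')) (SFq.const 0) ?_)
    ((hY.sub hY').div (hF.sub hG))
  exact (((((SFq.const _).mul (hF.pow_const 2)).add ((SFq.const _).mul hF)).add
    (SFq.const _)).sub ((SFq.const _).mul hY)).div (hY.sub (hF.negY hY))

open Classical in
theorem pxy_add (R S : W.Point) :
    px (R + S) = (if R = 0 then px S else if S = 0 then px R
      else if px R = px S ∧ py R = W.negY (px S) (py S) then 0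
      else W.addX (px R) (px S) (W.slope (px R) (px S) (py R) (py S))) ∧
    py (R + S) = (if R = 0 then py S else if S = 0 then py R
      else if px R = px S ∧ py R = W.negY (px S) (py S) then 0
      else W.addY (px R) (px S) (py R) (W.slope (px R) (px S) (py R) (py S))) := by
  by_cases hR : R = 0
  · simp [hR]
  by_cases hS : S = 0
  · simp [hR, hS]
  simp only [if_neg hR, if_neg hS]
  rcases R with _ | ⟨x, y, h⟩
  · exact absurd rfl hR
  rcases S with _ | ⟨x', y', h'⟩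
  · exact absurd rfl hS
  by_cases hxy : x = x' ∧ y = W.negY x' y'
  · rw [Point.add_of_Y_eq hxy.1 hxy.2]
    exact ⟨(if_pos hxy).symm, (if_pos hxy).symm⟩
  · rw [Point.add_some hxy]
    exact ⟨(if_neg hxy).symm, (if_neg hxy).symm⟩

theorem SFp.add (hA : SFp A) (hB : SFp B) : SFp (fun a => A a + B a) := by
  classical
  have hc := (hA.1.eq hB.1).and (hA.2.eq (hB.1.negY hB.2))
  have hs := hA.1.slope hB.1 hA.2 hB.2
  refine ⟨SFq.congr ?_ (fun a => (pxy_add _ _).1.symm), SFq.congr ?_ (fun a => (pxy_add _ _).2.symm)⟩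
  · exact SFq.ite hA.zero hB.1 (SFq.ite hB.zero hA.1
      (SFq.ite hc (SFq.const 0) (hA.1.addX hB.1 hs)))
  · exact SFq.ite hA.zero hB.2 (SFq.ite hB.zero hA.2
      (SFq.ite hc (SFq.const 0) (hA.1.addY hB.1 hA.2 hs)))

open Classical in
/-- The point with given coordinates, or `0`. -/
noncomputable def mkP (x y : ℚ) : W.Point := if h : W.Nonsingular x y then .some x y h else 0

theorem mkP_pxy (R : W.Point) : mkP (px R) (py R) = R := by
  rcases R with _ | ⟨x, y, h⟩
  · exact dif_neg not_ns_zero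
  · exact dif_pos h

theorem SFq.mkP (hF : SFq F) (hG : SFq G) : SFp (fun a => mkP (F a) (G a)) := by
  classical
  refine ⟨(SFq.ite (hF.ns hG) hF (SFq.const 0)).congr (fun a => ?_),
    (SFq.ite (hF.ns hG) hG (SFq.const 0)).congr (fun a => ?_)⟩ <;>
  · beta_reduce
    unfold R323.mkP
    split_ifs <;> rfl

/-- Code of a point. -/
def encP (R : W.Point) : Fin 6 → ℕ :=
  ![(px R).num.toNat, (-(px R).num).toNat, (px R).den,
    (py R).num.toNat, (-(py R).num).toNat, (py R).den]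

/-- Decoding. -/
noncomputable def decP (c : Fin 6 → ℕ) : W.Point :=
  mkP (((c 0 : ℚ) - (c 1 : ℚ)) / (c 2 : ℚ)) (((c 3 : ℚ) - (c 4 : ℚ)) / (c 5 : ℚ))

theorem decP_encP (R : W.Point) : decP (encP R) = R := by
  have h : decP (encP R) = mkP
    ((((px R).num.toNat : ℚ) - ((-(px R).num).toNat : ℚ)) / ((px R).den : ℚ))
    ((((py R).num.toNat : ℚ) - ((-(py R).num).toNat : ℚ)) / ((py R).den : ℚ)) := rfl
  rw [h, rat_eq_code, rat_eq_code, mkP_pxy]

theorem SFp.enc (hA : SFp A) (k : Fin 6) : SFn (fun a => encP (A a) k) := by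
  fin_cases k
  exacts [hA.1.numPos, hA.1.numNeg, hA.1.den, hA.2.numPos, hA.2.numNeg, hA.2.den]

theorem SFp.dec (e : Fin 6 → ι) : SFp (fun a : ι → ℕ => decP (fun k => a (e k))) :=
  SFq.mkP (((SFq.nat (SFn.proj _)).sub (SFq.nat (SFn.proj _))).div (SFq.nat (SFn.proj _)))
    (((SFq.nat (SFn.proj _)).sub (SFq.nat (SFn.proj _))).div (SFq.nat (SFn.proj _)))

/-- Unique existential quantifier over points. -/
theorem SF.exP {q : W.Point → (ι → ℕ) → Prop}
    (hq : ∀ A : (Fin 6 ⊕ ι → ℕ) → W.Point, SFp A →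
      SF (fun b : Fin 6 ⊕ ι → ℕ => q (A b) (fun i => b (Sum.inr i))))
    (hu : ∀ a R R', q R a → q R' a → R = R') : SF (fun a => ∃ R, q R a) := by
  have hA := SFp.dec (ι := Fin 6 ⊕ ι) Sum.inl
  have h1 := (SF.forall_fintype fun k => SF.eq (SFn.proj (Sum.inl k)) (hA.enc k)).and (hq _ hA)
  have h2 := SF.exT (p := fun c a => (∀ k, c k = encP (decP c) k) ∧ q (decP c) a) h1
    (fun a c c' hc hc' => by
      have := hu a _ _ hc.2 hc'.2
      funext k
      rw [hc.1 k, hc'.1 k, this])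
  refine h2.congr (fun a => ⟨fun ⟨c, hc⟩ => ⟨_, hc.2⟩, fun ⟨R, hR⟩ => ⟨encP R, ?_⟩⟩)
  rw [decP_encP]
  exact ⟨fun _ => rfl, hR⟩

end Crest.Agent.R323
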