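import Crest.Agent.R323.Defs

/-!
Row 323, part B1c: the canonical height and the structure of the group of points.
-/

set_option autoImplicit false

namespace Crest.Agent.R323

open Filter Topology

namespace Struct

variable {G : Type*} [AddCommGroup G]

/-- Tate's limit. -/
theorem exists_canonical (h : G → ℝ) (C : ℝ)
    (hp : ∀ R S, |h (R + S) + h (R - S) - 2 * (h R + h S)| ≤ C) :
    ∃ (q : G → ℝ) (C' : ℝ), (∀ R, |h R - q R| ≤ C') ∧
      ∀ R S, q (R + S) + q (R - S) = 2 * (q R + q S) := by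
  set a : G → ℕ → ℝ := fun R k => h ((2 ^ k : ℕ) • R) / 4 ^ k with ha
  have hstep : ∀ R k, dist (a R k) (a R (k + 1)) ≤ (C + |h 0|) * (1 / 4 : ℝ) ^ k := by
    intro R k
    have h1 := hp ((2 ^ k : ℕ) • R) ((2 ^ k : ℕ) • R)
    rw [sub_self, ← two_nsmul, ← mul_nsmul, ← pow_succ] at h1
    have h2 : a R k - a R (k + 1) =
        -((h ((2 ^ (k + 1) : ℕ) • R) - 4 * h ((2 ^ k : ℕ) • R)) / 4) * (1 / 4 : ℝ) ^ k := by
      simp only [ha, one_div, inv_pow, pow_succ]
      field_simp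
      ring
    rw [Real.dist_eq, h2, abs_mul, abs_of_nonneg (by positivity : (0 : ℝ) ≤ (1 / 4) ^ k), abs_neg]
    refine mul_le_mul_of_nonneg_right ?_ (by positivity)
    have h3 := abs_le.1 h1
    have h4 := le_abs_self (h 0)
    have h5 := neg_abs_le (h 0)
    have h6 := abs_nonneg (h 0)
    have h7 : 0 ≤ C := (abs_nonneg _).trans h1
    rw [abs_le]
    constructor <;> linarith [h3.1, h3.2]
  have hc : ∀ R, CauchySeq (a R) := fun R =>
    cauchySeq_of_le_geometric (1 / 4) _ (by norm_num) (hstep R)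
  choose q hq using fun R => cauchySeq_tendsto_of_complete (hc R)
  refine ⟨q, (C + |h 0|) / (1 - 1 / 4), fun R => ?_, fun R S => ?_⟩
  · have := dist_le_of_le_geometric_of_tendsto₀ (1 / 4) _ (by norm_num) (hstep R) (hq R)
    simpa [ha, Real.dist_eq] using this
  · have h1 : Tendsto (fun k => a (R + S) k + a (R - S) k - 2 * (a R k + a S k)) atTop
        (𝓝 (q (R + S) + q (R - S) - 2 * (q R + q S))) :=
      ((hq _).add (hq _)).sub (((hq _).add (hq _)).const_mul 2)
    have h2 : Tendsto (fun k => a (R + S) k + a (R - S) k - 2 * (a R k + a S k)) atTop (𝓝 0) := by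
      refine squeeze_zero_norm (a := fun k => C * (1 / 4 : ℝ) ^ k) (fun k => ?_) ?_
      · have h3 := hp ((2 ^ k : ℕ) • R) ((2 ^ k : ℕ) • S)
        rw [← smul_add, ← smul_sub] at h3
        have h4 : a (R + S) k + a (R - S) k - 2 * (a R k + a S k) =
            (h ((2 ^ k : ℕ) • (R + S)) + h ((2 ^ k : ℕ) • (R - S)) -
              2 * (h ((2 ^ k : ℕ) • R) + h ((2 ^ k : ℕ) • S))) * (1 / 4 : ℝ) ^ k := by
          simp only [ha, one_div, inv_pow]
          ring
        rw [Real.norm_eq_abs, h4, abs_mul, abs_of_nonneg (by positivity : (0 : ℝ) ≤ (1 / 4) ^ k)]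
        exact mul_le_mul_of_nonneg_right h3 (by positivity)
      · simpa using (tendsto_pow_atTop_nhds_zero_of_lt_one (r := (1 / 4 : ℝ)) (by norm_num)
          (by norm_num)).const_mul C
    linarith [tendsto_nhds_unique h1 h2]

section quad

variable {q : G → ℝ} (hq : ∀ R S, q (R + S) + q (R - S) = 2 * (q R + q S))
include hq

theorem q_zero : q 0 = 0 := by
  have := hq 0 0
  rw [add_zero, sub_zero] at this
  linarith

theorem q_neg (R : G) : q (-R) = q R := by
  have := hq 0 R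
  rw [zero_add, zero_sub, q_zero hq] at this
  linarith

theorem q_nsmul (n : ℕ) (R : G) : q (n • R) = (n : ℝ) ^ 2 * q R := by
  induction n using Nat.twoStepInduction with
  | zero => simp [q_zero hq]
  | one => simp
  | more n h1 h2 =>
    have := hq ((n + 1) • R) R
    rw [← succ_nsmul, succ_nsmul R n, add_sub_cancel_right, ← succ_nsmul, h1, h2] at this
    push_cast at this ⊢
    linarith

theorem q_zsmul (n : ℤ) (R : G) : q (n • R) = (n : ℝ) ^ 2 * q R := by
  obtain ⟨m, rfl | rfl⟩ := Int.eq_nat_or_neg n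
  · rw [natCast_zsmul, q_nsmul hq]
    simp
  · rw [neg_smul, q_neg hq, natCast_zsmul, q_nsmul hq]
    simp

end quad

theorem exists_min {q : G → ℝ} (hfin : ∀ B : ℝ, {R | q R ≤ B}.Finite) {p : G → Prop} {R₀ : G}
    (h : p R₀) : ∃ R, p R ∧ ∀ S, p S → q R ≤ q S := by
  obtain ⟨R, hR, hmin⟩ := Set.exists_min_image {R | q R ≤ q R₀ ∧ p R} q
    ((hfin (q R₀)).subset fun _ h => h.1) ⟨R₀, le_rfl, h⟩
  refine ⟨R, hR.2, fun S hS => ?_⟩
  rcases le_total (q S) (q R₀) with h' | h'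
  · exact hmin S ⟨h', hS⟩
  · exact hR.1.trans h'

theorem struct (h : G → ℝ) (C : ℝ) (h0 : ∀ R, 0 ≤ h R)
    (hp : ∀ R S, |h (R + S) + h (R - S) - 2 * (h R + h S)| ≤ C)
    (hN : ∀ B : ℝ, {R | h R ≤ B}.Finite) (P₀ : G) (hP₀ : ∀ n : ℕ, n • P₀ = 0 → n = 0)
    (hD : ∀ R : G, ∃ R' t : G, 2 • t = 0 ∧ (R = 2 • R' + t ∨ R = 2 • R' + t + P₀)) :
    ∃ (P : G) (T : Finset G) (η C : ℝ), 0 < η ∧ (0 : G) ∈ T ∧
      (∀ s ∈ T, ∀ t ∈ T, s - t ∈ T) ∧
      (∀ n : ℤ, n • P ∈ T → n = 0) ∧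
      (∀ R : G, ∃ n : ℤ, ∃ t ∈ T, R = n • P + t) ∧
      (∀ n : ℤ, ∀ t ∈ T, |h (n • P + t) - η * (n : ℝ) ^ 2| ≤ C) := by
  obtain ⟨q, C', hb, hq⟩ := exists_canonical h C hp
  have hfin : ∀ B : ℝ, {R | q R ≤ B}.Finite := fun B =>
    (hN (B + C')).subset fun R hR => by
      have h1 : q R ≤ B := hR
      have h2 := (abs_le.1 (hb R)).2
      change h R ≤ B + C'
      linarith
  have hq0 : ∀ R, 0 ≤ q R := by
    intro R
    by_contra hneg
    push Not at hneg
    obtain ⟨n, hn⟩ := exists_nat_gt (max 1 (C' / -q R))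
    have h1 : (1 : ℝ) < n := (le_max_left _ _).trans_lt hn
    have h2 : C' < n * -q R := (div_lt_iff₀ (by linarith)).1 ((le_max_right _ _).trans_lt hn)
    have h3 := (abs_le.1 (hb (n • R))).2
    rw [q_nsmul hq] at h3
    have h4 := h0 (n • R)
    have h5 : (n : ℝ) * -q R ≤ n ^ 2 * -q R :=
      mul_le_mul_of_nonneg_right (by nlinarith) (by linarith)
    linarith
  have htor : ∀ t, q t = 0 → ∃ n : ℕ, 0 < n ∧ n • t = 0 := by
    intro t ht
    rw [← isOfFinAddOrder_iff_nsmul_eq_zero, ← finite_multiples]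
    refine (hfin 0).subset ?_
    rintro _ ⟨n, rfl⟩
    change q (n • t) ≤ 0
    rw [q_nsmul hq, ht, mul_zero]
  have hadd : ∀ R t, q t = 0 → q (R + t) = q R := by
    intro R t ht
    obtain ⟨n, hn, hnt⟩ := htor t ht
    have h1 := q_nsmul hq n (R + t)
    rw [smul_add, hnt, add_zero, q_nsmul hq] at h1
    have : (0 : ℝ) < (n : ℝ) ^ 2 := by positivity
    exact (mul_left_cancel₀ this.ne' h1).symm
  have htwo : ∀ t : G, 2 • t = 0 → q t = 0 := by
    intro t ht
    have := q_nsmul hq 2 t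
    rw [ht, q_zero hq] at this
    push_cast at this
    linarith
  have hdbl : ∀ R t : G, q t = 0 → q (2 • R + t) = 4 * q R := by
    intro R t ht
    rw [hadd _ _ ht, q_nsmul hq]
    norm_num
  have hP₀q : q P₀ ≠ 0 := fun e => by
    obtain ⟨n, hn, h⟩ := htor P₀ e
    exact hn.ne' (hP₀ n h)
  obtain ⟨P, hP, hPmin⟩ := exists_min hfin (p := fun R => q R ≠ 0) hP₀q
  have hPpos : 0 < q P := lt_of_le_of_ne (hq0 P) (Ne.symm hP)
  have hD' : ∀ R : G, ∃ R' t : G, q t = 0 ∧ (R = 2 • R' + t ∨ R = 2 • R' + t + P) := by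
    obtain ⟨R₀, t₀, ht₀, e | e⟩ := hD P
    · have h1 := hdbl R₀ t₀ (htwo _ ht₀)
      rw [← e] at h1
      have h2 := hPmin R₀ (by intro h; rw [h] at h1; linarith)
      linarith
    · intro R
      obtain ⟨R', t, ht, e' | e'⟩ := hD R
      · exact ⟨R', t, htwo _ ht, Or.inl e'⟩
      · refine ⟨R' - R₀, t + -t₀, ?_, Or.inr ?_⟩
        · rw [hadd _ _ (by rw [q_neg hq, htwo _ ht₀]), htwo _ ht]
        · rw [e', e, smul_sub]
          abel
  have hgen : ∀ R : G, ∃ (n : ℤ) (t : G), q t = 0 ∧ R = n • P + t := by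
    by_contra hne
    rw [not_forall] at hne
    obtain ⟨R₀, hR₀⟩ := hne
    obtain ⟨R, hR, hmin⟩ := exists_min hfin
      (p := fun R => ¬ ∃ (n : ℤ) (t : G), q t = 0 ∧ R = n • P + t) hR₀
    have hR0 : q R ≠ 0 := fun e => hR ⟨0, R, e, by simp⟩
    have hRpos : 0 < q R := lt_of_le_of_ne (hq0 R) (Ne.symm hR0)
    have hcl : ∀ (R' t : G) (m : ℤ), q t = 0 → R = 2 • R' + t + m • P → q R ≤ q R' := by
      intro R' t m ht e
      refine hmin R' ?_
      rintro ⟨n, t', ht', rfl⟩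
      refine hR ⟨2 * n + m, 2 • t' + t, by rw [hdbl _ _ ht, ht', mul_zero], ?_⟩
      rw [e, add_smul, mul_smul, two_smul, two_smul, two_smul]
      abel
    obtain ⟨R', t, ht, e | e⟩ := hD' R
    · have h1 := hcl R' t 0 ht (by simpa using e)
      have h2 := hdbl R' t ht
      rw [← e] at h2
      linarith
    · have h1 := hcl R' t 1 ht (by simpa using e)
      have h2 := hcl (R' + P) t (-1) ht (by rw [e, two_smul, two_smul, neg_one_zsmul]; abel)
      have h3 := hq R P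
      have e1 : R + P = 2 • (R' + P) + t := by rw [e, two_smul, two_smul]; abel
      have e2 : R - P = 2 • R' + t := by rw [e]; abel
      rw [e1, e2, hdbl _ _ ht, hdbl _ _ ht] at h3
      have h4 := hPmin R hR0
      linarith
  have hmem : ∀ t, t ∈ (hfin 0).toFinset ↔ q t = 0 := fun t => by
    rw [Set.Finite.mem_toFinset]
    exact ⟨fun h => le_antisymm h (hq0 t), fun h => h.le⟩
  refine ⟨P, (hfin 0).toFinset, q P, C', hPpos, (hmem 0).2 (q_zero hq), fun s hs t ht => ?_,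
    fun n hn => ?_, fun R => ?_, fun n t ht => ?_⟩
  · rw [hmem] at hs ht ⊢
    rw [sub_eq_add_neg, hadd _ _ (by rw [q_neg hq, ht]), hs]
  · rw [hmem, q_zsmul hq, mul_eq_zero] at hn
    have := hn.resolve_right hP
    exact_mod_cast pow_eq_zero_iff two_ne_zero |>.1 this
  · obtain ⟨n, t, ht, e⟩ := hgen R
    exact ⟨n, t, (hmem t).2 ht, e⟩
  · have := hb (n • P + t)
    rwa [hadd _ _ ((hmem t).1 ht), q_zsmul hq, mul_comm] at this

end Struct

theorem structSpec (hH : HeightSpec) (hD : DescentSpec) : StructSpec := by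
  obtain ⟨⟨C, hC⟩, hN⟩ := hH
  obtain ⟨P₀, h1, -, h2⟩ := hD
  refine Struct.struct (fun R => Real.log (HP R)) C (fun R => Real.log_natCast_nonneg _) hC
    (fun B => (hN ⌈Real.exp B⌉₊).subset fun R hR => ?_) P₀ h1 h2
  have h3 : (HP R : ℝ) ≤ Real.exp B := (Real.le_exp_log _).trans (Real.exp_le_exp.2 hR)
  change HP R ≤ ⌈Real.exp B⌉₊
  exact_mod_cast h3.trans (Nat.le_ceil _)

end Crest.Agent.R323
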